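import Mathlib

/-!
P037: the model matrix.  Rows and columns are elements of `Om N K M m`, ordered
lexicographically by (block, leaf, round, class, copy).
-/

namespace Vale.Agent.P037h3

/-- Index type of rows and of columns. -/
structure Om (N K M m : ℕ) where
  /-- block -/
  b : Fin 26
  /-- leaf -/
  l : Fin N → Fin K
  /-- round -/
  r : Fin M
  /-- class (depth, or label level) -/
  c : Fin (N + 1)
  /-- copy -/
  s : Fin m
  deriving DecidableEq

namespace Om

variable {N K M m : ℕ}

/-- the underlying product -/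
def equivProd : Om N K M m ≃ (Fin 26 × (Fin N → Fin K) × Fin M × Fin (N + 1) × Fin m) where
  toFun x := (x.b, x.l, x.r, x.c, x.s)
  invFun p := ⟨p.1, p.2.1, p.2.2.1, p.2.2.2.1, p.2.2.2.2⟩
  left_inv _ := rfl
  right_inv _ := rfl

instance : Fintype (Om N K M m) := Fintype.ofEquiv _ equivProd.symm

/-- the key used for the linear order -/
def key (x : Om N K M m) :
    Lex (Fin 26 × Lex (Lex (Fin N → Fin K) × Lex (Fin M × Lex (Fin (N + 1) × Fin m)))) :=
  toLex (x.b, toLex (toLex x.l, toLex (x.r, toLex (x.c, x.s))))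

theorem key_injective : Function.Injective (key : Om N K M m → _) := by
  intro x y h
  cases x; cases y
  simp only [key, EmbeddingLike.apply_eq_iff_eq, Prod.mk.injEq] at h
  obtain ⟨h1, h2, h3, h4, h5⟩ := h
  subst h1 h2 h3 h4 h5
  rfl

noncomputable instance : LinearOrder (Om N K M m) := LinearOrder.lift' key key_injective

theorem lt_iff (x y : Om N K M m) : x < y ↔ key x < key y := Iff.rfl
theorem le_iff (x y : Om N K M m) : x ≤ y ↔ key x ≤ key y := Iff.rfl

theorem b_le {x y : Om N K M m} (h : x ≤ y) : x.b ≤ y.b := by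
  rw [le_iff, Prod.Lex.le_iff] at h
  rcases h with h | ⟨h, _⟩
  · exact le_of_lt h
  · exact le_of_eq h

theorem l_le {x y : Om N K M m} (h : x ≤ y) (hb : x.b = y.b) : toLex x.l ≤ toLex y.l := by
  rw [le_iff, Prod.Lex.le_iff] at h
  rcases h with h | ⟨_, h⟩
  · exact absurd hb (ne_of_lt h)
  · rw [Prod.Lex.le_iff] at h
    rcases h with h | ⟨h, _⟩
    · exact le_of_lt h
    · exact le_of_eq h

theorem lt_of_b {x y : Om N K M m} (h : x.b < y.b) : x < y := by
  rw [lt_iff, Prod.Lex.lt_iff]
  exact Or.inl h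

theorem lt_of_l {x y : Om N K M m} (hb : x.b = y.b) (h : toLex x.l < toLex y.l) : x < y := by
  rw [lt_iff, Prod.Lex.lt_iff]
  refine Or.inr ⟨hb, ?_⟩
  rw [Prod.Lex.lt_iff]
  exact Or.inl h

theorem lt_of_r {x y : Om N K M m} (hb : x.b = y.b) (hl : x.l = y.l) (h : x.r < y.r) :
    x < y := by
  rw [lt_iff, Prod.Lex.lt_iff]
  refine Or.inr ⟨hb, ?_⟩
  rw [Prod.Lex.lt_iff]
  refine Or.inr ⟨?_, ?_⟩
  · change toLex x.l = toLex y.l
    rw [hl]
  · rw [Prod.Lex.lt_iff]
    exact Or.inl h

theorem card_eq : Fintype.card (Om N K M m) = 26 * (K ^ N * (M * ((N + 1) * m))) := by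
  rw [Fintype.card_congr equivProd]
  simp

end Om

/-! ### leaves -/

section leaf
variable {N K : ℕ}

/-- digit of a leaf at level `j` (`1 ≤ j ≤ N`), `0` elsewhere -/
def dig (I : Fin N → Fin K) (j : ℕ) : ℕ :=
  if h : 0 < j ∧ j ≤ N then (I ⟨j - 1, by omega⟩ : ℕ) else 0

/-- the leaves `I` and `J` agree on all levels up to `d` -/
def pe (d : ℕ) (I J : Fin N → Fin K) : Prop := ∀ j, j ≤ d → dig I j = dig J j

theorem pe.symm {d : ℕ} {I J : Fin N → Fin K} (h : pe d I J) : pe d J I :=
  fun j hj => (h j hj).symm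

theorem pe.trans {d : ℕ} {I J L : Fin N → Fin K} (h : pe d I J) (h' : pe d J L) : pe d I L :=
  fun j hj => (h j hj).trans (h' j hj)

theorem pe.mono {d e : ℕ} {I J : Fin N → Fin K} (h : pe e I J) (hd : d ≤ e) : pe d I J :=
  fun j hj => h j (hj.trans hd)

theorem pe_refl (d : ℕ) (I : Fin N → Fin K) : pe d I I := fun _ _ => rfl

theorem pe_zero (I J : Fin N → Fin K) : pe 0 I J := by
  intro j hj
  have : j = 0 := by omega
  subst this
  simp [dig]

theorem pe_succ {d : ℕ} {I J : Fin N → Fin K} (h : pe d I J) (h' : dig I (d + 1) = dig J (d + 1)) :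
    pe (d + 1) I J := by
  intro j hj
  rcases Nat.lt_or_ge d j with h1 | h1
  · have : j = d + 1 := by omega
    subst this; exact h'
  · exact h j h1

theorem eq_of_pe {I J : Fin N → Fin K} (h : pe N I J) : I = J := by
  funext i
  have := h (i + 1) (by omega)
  have hi : 0 < (i : ℕ) + 1 ∧ (i : ℕ) + 1 ≤ N := by omega
  simp only [dig, hi, and_self, dite_true, Nat.add_sub_cancel, Fin.eta] at this
  exact Fin.ext this

/-- sandwich: lexicographically between two leaves with the same prefix -/
theorem pe_sandwich {d : ℕ} {I J L : Fin N → Fin K} (h1 : toLex I ≤ toLex J)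
    (h2 : toLex J ≤ toLex L) (h : pe d I L) : pe d I J := by
  intro j
  induction j using Nat.strong_induction_on with
  | _ j ih =>
    intro hj
    by_cases hjj : 0 < j ∧ j ≤ N
    · -- agree below
      have hI : ∀ i : Fin N, (i : ℕ) < j - 1 → I i = J i := by
        intro i hi
        have := ih (i + 1) (by omega) (by omega)
        have hi' : 0 < (i : ℕ) + 1 ∧ (i : ℕ) + 1 ≤ N := by omega
        simp only [dig, hi', and_self, dite_true, Nat.add_sub_cancel, Fin.eta] at this
        exact Fin.ext this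
      have hL : ∀ i : Fin N, (i : ℕ) < j - 1 → J i = L i := by
        intro i hi
        rw [← hI i hi]
        have := h (i + 1) (by omega)
        have hi' : 0 < (i : ℕ) + 1 ∧ (i : ℕ) + 1 ≤ N := by omega
        simp only [dig, hi', and_self, dite_true, Nat.add_sub_cancel, Fin.eta] at this
        exact Fin.ext this
      have key : ∀ (X Y : Fin N → Fin K), toLex X ≤ toLex Y →
          (∀ i : Fin N, (i : ℕ) < j - 1 → X i = Y i) →
          X ⟨j - 1, by omega⟩ ≤ Y ⟨j - 1, by omega⟩ := by
        intro X Y hXY hag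
        rcases eq_or_lt_of_le hXY with he | hlt
        · have : X = Y := he
          rw [this]
        · obtain ⟨i, hi1, hi2⟩ := hlt
          rcases Nat.lt_trichotomy (i : ℕ) (j - 1) with hlt | heq | hgt
          · exact absurd (hag i hlt) (ne_of_lt hi2)
          · have : i = ⟨j - 1, by omega⟩ := Fin.ext heq
            rw [← this]
            exact le_of_lt hi2
          · have := hi1 ⟨j - 1, by omega⟩ (by
              show (⟨j - 1, _⟩ : Fin N) < i
              exact Fin.lt_def.mpr hgt)
            exact le_of_eq this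
      have a1 := key I J h1 hI
      have a2 := key J L h2 hL
      have a3 := h j hj
      simp only [dig, hjj, and_self, dite_true] at a3 ⊢
      have a1' : ((I ⟨j - 1, by omega⟩ : Fin K) : ℕ) ≤ (J ⟨j - 1, by omega⟩ : Fin K) := a1
      have a2' : ((J ⟨j - 1, by omega⟩ : Fin K) : ℕ) ≤ (L ⟨j - 1, by omega⟩ : Fin K) := a2
      omega
    · simp [dig, hjj]

end leaf

end Vale.Agent.P037h3
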