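import Mathlib
import Vale.Agent.P037_h3.Model

/-!
P037: the pattern (`26 × 26`) and the entries of the model matrix.
-/

namespace Vale.Agent.P037h3

/-- kinds of blocks -/
inductive Kd
  | col (i : ℕ)
  | T
  | U
  | E
  | F

/-- kind of a row block -/
def rowKd (b : ℕ) : Kd :=
  if b < 22 then .col b else if b = 22 then .T else if b = 23 then .U else if b = 24 then .E else .F

/-- kind of a column block -/
def colKd (b : ℕ) : Kd :=
  if b < 22 then .col b else if b = 22 then .T else if b = 23 then .E else .F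

/-- five rows, the first three columns are `111, 110, 101, 011, 000` -/
def G (i j : ℕ) : Bool :=
  decide (j = 4 ∨ (j = 0 ∧ i ≤ 2) ∨ (j = 1 ∧ (i = 0 ∨ i = 1 ∨ i = 3)) ∨
    (j = 2 ∧ (i = 0 ∨ i = 2 ∨ i = 3)))

/-- the guard part of the pattern -/
def W (i j : ℕ) : Bool :=
  if i = 21 ∨ j = 21 then true else if i = 0 ∨ j = 0 then false else G ((i - 1) % 5) ((j - 1) % 5)

/-- the pattern on natural number indices -/
def Hn (i j : ℕ) : Bool :=
  if i < 22 then (if j < 22 then W i j else decide (i = 0 ∧ j = 25))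
  else if j < 22 then decide (j = 0 ∧ i = 25)
  else decide (¬ (i = 23 ∧ j = 23))

/-- the pattern -/
def Hp : Matrix (Fin 26) (Fin 26) Bool := fun i j => Hn i j

variable {N K M m : ℕ}

/-- entries of the model matrix, in terms of kind, leaf and class of row and column -/
def ent : Kd → (Fin N → Fin K) → ℕ → Kd → (Fin N → Fin K) → ℕ → Prop
  | .col i, _, _, .col j, _, _ => W i j = true
  | .col _, _, _, .T, _, _ => False
  | .col i, _, _, .U, _, _ => i = 0
  | .col i, _, _, .E, _, _ => i = 0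
  | .col i, _, _, .F, _, _ => i = 0
  | .T, _, _, .col _, _, _ => False
  | .U, _, _, .col _, _, _ => False
  | .E, _, _, .col j, _, _ => j = 0
  | .F, _, _, .col j, _, _ => j = 0
  | .T, I, a, .T, J, b => ¬ (a = N ∧ b = N) ∧ pe (min a b) I J
  | .T, I, a, .E, J, b => a + 1 = b ∨ (a = b ∧ dig I b = dig J b)
  | .T, _, a, .F, _, _ => a = N
  | .T, _, _, .U, _, _ => False
  | .U, _, _, .T, _, _ => True
  | .U, _, _, .E, _, _ => False
  | .U, _, _, .F, _, _ => True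
  | .U, _, _, .U, _, _ => True
  | .E, I, a, .T, J, b => b + 1 = a ∨ (b = a ∧ dig J a = dig I a)
  | .E, I, a, .E, J, b => a = b → dig I a = dig J b
  | .E, _, _, .F, _, _ => False
  | .E, _, _, .U, _, _ => False
  | .F, _, _, .T, _, b => b = 0 ∨ b = N
  | .F, _, _, .E, _, _ => False
  | .F, _, _, .F, _, _ => True
  | .F, _, _, .U, _, _ => True

/-- entries of the model matrix -/
def entO (x y : Om N K M m) : Prop := ent (rowKd x.b) x.l x.c (colKd y.b) y.l y.c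

theorem rowKd_lt' {b : ℕ} (h : b < 22) : rowKd b = .col b := by simp [rowKd, h]

theorem colKd_lt' {b : ℕ} (h : b < 22) : colKd b = .col b := by simp [colKd, h]

/-! ### exclusion of the guard pattern -/

theorem path_row {a0 a1 b0 b2 : ℕ} {I0 I1 J0 J2 : Fin N → Fin K}
    (h02 : ¬ (a0 = N ∧ b2 = N) ∧ pe (min a0 b2) I0 J2)
    (h12 : ¬ (a1 = N ∧ b2 = N) ∧ pe (min a1 b2) I1 J2)
    (h10 : ¬ (a1 = N ∧ b0 = N) ∧ pe (min a1 b0) I1 J0)
    (m1 : a0 ≤ b2) (m2 : a0 ≤ a1) (m3 : a0 ≤ b0) (hb2 : b2 ≤ N) :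
    ¬ (a0 = N ∧ b0 = N) ∧ pe (min a0 b0) I0 J0 := by
  refine ⟨?_, ?_⟩
  · rintro ⟨h, _⟩
    exact h02.1 ⟨h, by omega⟩
  · have e1 : pe a0 I0 J2 := h02.2.mono (by omega)
    have e2 : pe a0 I1 J2 := h12.2.mono (by omega)
    have e3 : pe a0 I1 J0 := h10.2.mono (by omega)
    exact ((e1.trans e2.symm).trans e3).mono (by omega)

theorem path_col {b0 b1 a0 a2 : ℕ} {J0 J1 I0 I2 : Fin N → Fin K}
    (h20 : ¬ (a2 = N ∧ b0 = N) ∧ pe (min a2 b0) I2 J0)
    (h21 : ¬ (a2 = N ∧ b1 = N) ∧ pe (min a2 b1) I2 J1)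
    (h01 : ¬ (a0 = N ∧ b1 = N) ∧ pe (min a0 b1) I0 J1)
    (m1 : b0 ≤ a2) (m2 : b0 ≤ b1) (m3 : b0 ≤ a0) (ha2 : a2 ≤ N) :
    ¬ (a0 = N ∧ b0 = N) ∧ pe (min a0 b0) I0 J0 := by
  refine ⟨?_, ?_⟩
  · rintro ⟨_, h⟩
    exact h20.1 ⟨by omega, h⟩
  · have e1 : pe b0 I2 J0 := h20.2.mono (by omega)
    have e2 : pe b0 I2 J1 := h21.2.mono (by omega)
    have e3 : pe b0 I0 J1 := h01.2.mono (by omega)
    exact ((e3.trans e2.symm).trans e1).mono (by omega)

theorem excl_TT {a : ℕ → ℕ} {b : ℕ → ℕ} {I J : ℕ → Fin N → Fin K} (ha : ∀ s, a s ≤ N)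
    (hb : ∀ t, b t ≤ N)
    (h : ∀ s t, s < 5 → t < 3 → ((¬ (a s = N ∧ b t = N) ∧ pe (min (a s) (b t)) (I s) (J t)) ↔
      G s t = true)) : False := by
  have h10 := (h 1 0 (by norm_num) (by norm_num)).2 (by decide)
  have h11 := (h 1 1 (by norm_num) (by norm_num)).2 (by decide)
  have h20 := (h 2 0 (by norm_num) (by norm_num)).2 (by decide)
  have h22 := (h 2 2 (by norm_num) (by norm_num)).2 (by decide)
  have h31 := (h 3 1 (by norm_num) (by norm_num)).2 (by decide)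
  have h32 := (h 3 2 (by norm_num) (by norm_num)).2 (by decide)
  have n12 := mt (h 1 2 (by norm_num) (by norm_num)).1 (by decide)
  have n21 := mt (h 2 1 (by norm_num) (by norm_num)).1 (by decide)
  have n30 := mt (h 3 0 (by norm_num) (by norm_num)).1 (by decide)
  have cases : (a 1 ≤ a 2 ∧ a 1 ≤ a 3 ∧ a 1 ≤ b 0 ∧ a 1 ≤ b 1 ∧ a 1 ≤ b 2) ∨
    (a 2 ≤ a 1 ∧ a 2 ≤ a 3 ∧ a 2 ≤ b 0 ∧ a 2 ≤ b 1 ∧ a 2 ≤ b 2) ∨
    (a 3 ≤ a 1 ∧ a 3 ≤ a 2 ∧ a 3 ≤ b 0 ∧ a 3 ≤ b 1 ∧ a 3 ≤ b 2) ∨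
    (b 0 ≤ a 1 ∧ b 0 ≤ a 2 ∧ b 0 ≤ a 3 ∧ b 0 ≤ b 1 ∧ b 0 ≤ b 2) ∨
    (b 1 ≤ a 1 ∧ b 1 ≤ a 2 ∧ b 1 ≤ a 3 ∧ b 1 ≤ b 0 ∧ b 1 ≤ b 2) ∨
    (b 2 ≤ a 1 ∧ b 2 ≤ a 2 ∧ b 2 ≤ a 3 ∧ b 2 ≤ b 0 ∧ b 2 ≤ b 1) := by omega
  rcases cases with c | c | c | c | c | c
  · exact n12 (path_row h10 h20 h22 c.2.2.1 c.1 c.2.2.2.2 (hb 0))
  · exact n21 (path_row h20 h10 h11 c.2.2.1 c.1 c.2.2.2.1 (hb 0))
  · exact n30 (path_row h31 h11 h10 c.2.2.2.1 c.1 c.2.2.1 (hb 1))
  · exact n30 (path_col h10 h11 h31 c.1 c.2.2.2.1 c.2.2.1 (ha 1))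
  · exact n21 (path_col h11 h10 h20 c.1 c.2.2.2.1 c.2.1 (ha 1))
  · exact n12 (path_col h22 h20 h10 c.2.1 c.2.2.2.1 c.1 (ha 2))

/-- abstract form of the exclusion of `111, 110, 101, 011` against label columns -/
theorem excl_TE {a b : ℕ → ℕ} {d : ℕ → ℕ → ℕ} {x : ℕ → ℕ}
    (h : ∀ s t, s < 5 → t < 3 → ((a s + 1 = b t ∨ (a s = b t ∧ d s (b t) = x t)) ↔
      G s t = true)) : False := by
  have h00 := (h 0 0 (by norm_num) (by norm_num)).2 (by decide)
  have h01 := (h 0 1 (by norm_num) (by norm_num)).2 (by decide)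
  have h02 := (h 0 2 (by norm_num) (by norm_num)).2 (by decide)
  have h10 := (h 1 0 (by norm_num) (by norm_num)).2 (by decide)
  have h11 := (h 1 1 (by norm_num) (by norm_num)).2 (by decide)
  have h20 := (h 2 0 (by norm_num) (by norm_num)).2 (by decide)
  have h22 := (h 2 2 (by norm_num) (by norm_num)).2 (by decide)
  have h31 := (h 3 1 (by norm_num) (by norm_num)).2 (by decide)
  have h32 := (h 3 2 (by norm_num) (by norm_num)).2 (by decide)
  have n12 := mt (h 1 2 (by norm_num) (by norm_num)).1 (by decide)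
  have n21 := mt (h 2 1 (by norm_num) (by norm_num)).1 (by decide)
  have n30 := mt (h 3 0 (by norm_num) (by norm_num)).1 (by decide)
  clear h
  grind

/-- abstract form of the exclusion of `111, 110, 101, 011` for label rows -/
theorem excl_ET {a b : ℕ → ℕ} {d : ℕ → ℕ → ℕ} {x : ℕ → ℕ}
    (h : ∀ s t, s < 5 → t < 3 → ((b t + 1 = a s ∨ (b t = a s ∧ d t (a s) = x s)) ↔
      G s t = true)) : False := by
  have h00 := (h 0 0 (by norm_num) (by norm_num)).2 (by decide)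
  have h01 := (h 0 1 (by norm_num) (by norm_num)).2 (by decide)
  have h02 := (h 0 2 (by norm_num) (by norm_num)).2 (by decide)
  have h10 := (h 1 0 (by norm_num) (by norm_num)).2 (by decide)
  have h11 := (h 1 1 (by norm_num) (by norm_num)).2 (by decide)
  have h20 := (h 2 0 (by norm_num) (by norm_num)).2 (by decide)
  have h22 := (h 2 2 (by norm_num) (by norm_num)).2 (by decide)
  have h31 := (h 3 1 (by norm_num) (by norm_num)).2 (by decide)
  have h32 := (h 3 2 (by norm_num) (by norm_num)).2 (by decide)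
  have n12 := mt (h 1 2 (by norm_num) (by norm_num)).1 (by decide)
  have n21 := mt (h 2 1 (by norm_num) (by norm_num)).1 (by decide)
  have n30 := mt (h 3 0 (by norm_num) (by norm_num)).1 (by decide)
  clear h
  grind

/-- abstract form of the exclusion of `000, 110, 101, 011` for label rows and columns -/
theorem excl_EE {a b : ℕ → ℕ} {d : ℕ → ℕ → ℕ} {x : ℕ → ℕ}
    (h : ∀ s t, s < 5 → t < 3 → ((a s = b t → d s (a s) = x t) ↔
      G s t = true)) : False := by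
  have h10 := (h 1 0 (by norm_num) (by norm_num)).2 (by decide)
  have h11 := (h 1 1 (by norm_num) (by norm_num)).2 (by decide)
  have h20 := (h 2 0 (by norm_num) (by norm_num)).2 (by decide)
  have h22 := (h 2 2 (by norm_num) (by norm_num)).2 (by decide)
  have n12 := mt (h 1 2 (by norm_num) (by norm_num)).1 (by decide)
  have n21 := mt (h 2 1 (by norm_num) (by norm_num)).1 (by decide)
  have n40 := mt (h 4 0 (by norm_num) (by norm_num)).1 (by decide)
  have n41 := mt (h 4 1 (by norm_num) (by norm_num)).1 (by decide)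
  have n42 := mt (h 4 2 (by norm_num) (by norm_num)).1 (by decide)
  clear h
  grind

end Vale.Agent.P037h3
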