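import Mathlib
import Vale.Agent.P037_h3.Pattern

/-!
P037: every copy of the pattern in the model matrix is aligned, and its centre lies in one leaf.
-/

namespace Vale.Agent.P037h3

variable {N K M m : ℕ}

theorem ent_col_left (i : ℕ) (k : Kd) (I I' : Fin N → Fin K) (a a' : ℕ) (J : Fin N → Fin K)
    (b : ℕ) : ent (.col i) I a k J b ↔ ent (.col i) I' a' k J b := by
  cases k <;> simp [ent]

theorem ent_col_right (j : ℕ) (k : Kd) (I : Fin N → Fin K) (a : ℕ) (J J' : Fin N → Fin K)
    (b b' : ℕ) : ent k I a (.col j) J b ↔ ent k I a (.col j) J' b' := by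
  cases k <;> simp [ent]

/-- no five rows of one kind and three columns of one kind realise the guard pattern -/
theorem excl_kinds (kr kc : Kd) (hkr : ∀ i, kr ≠ .col i) (hkc : ∀ i, kc ≠ .col i)
    (hU : kc ≠ .U)
    {a b : ℕ → ℕ} {I J : ℕ → Fin N → Fin K} (ha : ∀ s, a s ≤ N) (hb : ∀ t, b t ≤ N)
    (h : ∀ s t, s < 5 → t < 3 → (ent kr (I s) (a s) kc (J t) (b t) ↔ G s t = true)) :
    False := by
  have h00 := h 0 0 (by norm_num) (by norm_num)
  have h10 := h 1 0 (by norm_num) (by norm_num)
  have h12 := h 1 2 (by norm_num) (by norm_num)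
  have h40 := h 4 0 (by norm_num) (by norm_num)
  have g00 : G 0 0 = true := by decide
  have g10 : G 1 0 = true := by decide
  have g12 : G 1 2 = false := by decide
  have g40 : G 4 0 = false := by decide
  cases kr with
  | col i => exact hkr i rfl
  | T =>
    cases kc with
    | col i => exact hkc i rfl
    | T => exact excl_TT ha hb h
    | U => exact hU rfl
    | E => exact excl_TE (a := a) (b := b) (d := fun s l => dig (I s) l)
            (x := fun t => dig (J t) (b t)) h
    | F => simp [ent, g10, g12] at h10 h12; exact h12 h10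
  | U =>
    cases kc with
    | col i => exact hkc i rfl
    | T => simp [ent, g40] at h40
    | U => exact hU rfl
    | E => simp [ent, g00] at h00
    | F => simp [ent, g40] at h40
  | E =>
    cases kc with
    | col i => exact hkc i rfl
    | T => exact excl_ET (a := a) (b := b) (d := fun t l => dig (J t) l)
            (x := fun s => dig (I s) (a s)) h
    | U => exact hU rfl
    | E => exact excl_EE (a := a) (b := b) (d := fun s l => dig (I s) l)
            (x := fun t => dig (J t) (b t)) h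
    | F => simp [ent, g00] at h00
  | F =>
    cases kc with
    | col i => exact hkc i rfl
    | T => simp only [ent, g00, g40] at h00 h40; simp at h00 h40; omega
    | U => exact hU rfl
    | E => simp [ent, g00] at h00
    | F => simp [ent, g40] at h40

theorem Hp_rows : ∀ i : Fin 25, ∃ j : Fin 26, Hp i.castSucc j ≠ Hp i.succ j := by decide

theorem Hp_cols : ∀ j : Fin 25, ∃ i : Fin 26, Hp i j.castSucc ≠ Hp i j.succ := by decide

theorem rowKd_lt {b : ℕ} (h : b < 22) : rowKd b = .col b := by simp [rowKd, h]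

theorem colKd_lt {b : ℕ} (h : b < 22) : colKd b = .col b := by simp [colKd, h]

theorem rowKd_ne {b : ℕ} (h : 22 ≤ b) : ∀ i, rowKd b ≠ .col i := by
  intro i
  unfold rowKd
  split_ifs <;> (simp; try omega)

theorem colKd_ne {b : ℕ} (h : 22 ≤ b) : ∀ i, colKd b ≠ .col i := by
  intro i
  unfold colKd
  split_ifs <;> (simp; try omega)

theorem colKd_neU {b : ℕ} : colKd b ≠ .U := by
  unfold colKd
  split_ifs <;> simp

/-- a nondecreasing function on `1..20` with values in `22..25` is constant on one of the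
four groups of five -/
theorem exists_group (f : ℕ → ℕ) (hm : ∀ i j, i ≤ j → j ≤ 25 → f i ≤ f j) (h1 : 22 ≤ f 1)
    (h2 : ∀ i, i ≤ 25 → f i ≤ 25) : ∃ g, g < 4 ∧ ∀ s, s < 5 → f (5 * g + 1 + s) = f (5 * g + 1) := by
  by_contra hcon
  push Not at hcon
  have key : ∀ g, g < 4 → f (5 * g + 1) + 1 ≤ f (5 * g + 5) := by
    intro g hg
    obtain ⟨s, hs, hne⟩ := hcon g hg
    have e1 := hm (5 * g + 1) (5 * g + 1 + s) (by omega) (by omega)
    have e2 := hm (5 * g + 1 + s) (5 * g + 5) (by omega) (by omega)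
    omega
  have k0 := key 0 (by norm_num)
  have k1 := key 1 (by norm_num)
  have k2 := key 2 (by norm_num)
  have k3 := key 3 (by norm_num)
  have m0 := hm 5 6 (by norm_num) (by norm_num)
  have m1 := hm 10 11 (by norm_num) (by norm_num)
  have m2 := hm 15 16 (by norm_num) (by norm_num)
  have m3 := h2 20 (by norm_num)
  norm_num at k0 k1 k2 k3
  omega

section copy

variable {r c : Fin 26 → Om N K M m}

theorem br_mono (hr : StrictMono r) {i j : Fin 26} (h : i ≤ j) :
    ((r i).b : ℕ) ≤ (r j).b := Om.b_le (hr.monotone h)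

theorem row_strict (hr : StrictMono r)
    (h : ∀ i j, entO (r i) (c j) ↔ Hp i j = true) (i : Fin 25)
    (hi : ((r i.castSucc).b : ℕ) < 22) : ((r i.castSucc).b : ℕ) < (r i.succ).b := by
  rcases lt_or_eq_of_le (br_mono hr (le_of_lt (Fin.castSucc_lt_succ (i := i)))) with h1 | h1
  · exact h1
  · exfalso
    obtain ⟨j, hj⟩ := Hp_rows i
    apply hj
    have e1 := h i.castSucc j
    have e2 := h i.succ j
    unfold entO at e1 e2
    rw [← h1, rowKd_lt hi] at e2
    rw [rowKd_lt hi] at e1
    rw [ent_col_left _ _ (r i.castSucc).l (r i.succ).l ((r i.castSucc).c : ℕ)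
      ((r i.succ).c : ℕ)] at e1
    have := e1.symm.trans e2
    exact Bool.eq_iff_iff.mpr this

theorem col_strict (hc : StrictMono c)
    (h : ∀ i j, entO (r i) (c j) ↔ Hp i j = true) (j : Fin 25)
    (hj : ((c j.castSucc).b : ℕ) < 22) : ((c j.castSucc).b : ℕ) < (c j.succ).b := by
  rcases lt_or_eq_of_le (br_mono hc (le_of_lt (Fin.castSucc_lt_succ (i := j)))) with h1 | h1
  · exact h1
  · exfalso
    obtain ⟨i, hi⟩ := Hp_cols j
    apply hi
    have e1 := h i j.castSucc
    have e2 := h i j.succ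
    unfold entO at e1 e2
    rw [← h1, colKd_lt hj] at e2
    rw [colKd_lt hj] at e1
    rw [ent_col_right _ _ _ _ (c j.castSucc).l (c j.succ).l ((c j.castSucc).c : ℕ)
      ((c j.succ).c : ℕ)] at e1
    have := e1.symm.trans e2
    exact Bool.eq_iff_iff.mpr this

/-- if every row and column from index `1` on is in the active region: contradiction -/
theorem excl_act (hr : StrictMono r) (hc : StrictMono c)
    (h : ∀ i j, entO (r i) (c j) ↔ Hp i j = true)
    (h1 : 22 ≤ ((r 1).b : ℕ)) (h2 : 22 ≤ ((c 1).b : ℕ)) : False := by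
  set fr : ℕ → ℕ := fun i => ((r (Fin.ofNat 26 (min i 25))).b : ℕ) with hfr
  set fc : ℕ → ℕ := fun i => ((c (Fin.ofNat 26 (min i 25))).b : ℕ) with hfc
  have ofmono : ∀ i j, i ≤ j → j ≤ 25 →
      (Fin.ofNat 26 (min i 25) : Fin 26) ≤ Fin.ofNat 26 (min j 25) := by
    intro i j hij hj
    rw [Fin.le_def]
    simp only [Fin.ofNat]
    have : min i 25 % 26 = i := by omega
    have : min j 25 % 26 = j := by omega
    omega
  have hf1 : 22 ≤ fr 1 := h1
  have hg1 : 22 ≤ fc 1 := h2
  obtain ⟨g, hg, hgc⟩ := exists_group fr (fun i j hij hj => br_mono hr (ofmono i j hij hj))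
    hf1 (fun i _ => by simp only [hfr]; omega)
  obtain ⟨g', hg', hgc'⟩ := exists_group fc (fun i j hij hj => br_mono hc (ofmono i j hij hj))
    hg1 (fun i _ => by simp only [hfc]; omega)
  have hr22 : 22 ≤ fr (5 * g + 1) :=
    le_trans hf1 (br_mono hr (ofmono 1 (5 * g + 1) (by omega) (by omega)))
  have hc22 : 22 ≤ fc (5 * g' + 1) :=
    le_trans hg1 (br_mono hc (ofmono 1 (5 * g' + 1) (by omega) (by omega)))
  refine excl_kinds (N := N) (K := K) (rowKd (fr (5 * g + 1))) (colKd (fc (5 * g' + 1)))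
    (rowKd_ne hr22) (colKd_ne hc22) colKd_neU
    (a := fun s => ((r (Fin.ofNat 26 (min (5 * g + 1 + s) 25))).c : ℕ))
    (b := fun t => ((c (Fin.ofNat 26 (min (5 * g' + 1 + t) 25))).c : ℕ))
    (I := fun s => (r (Fin.ofNat 26 (min (5 * g + 1 + s) 25))).l)
    (J := fun t => (c (Fin.ofNat 26 (min (5 * g' + 1 + t) 25))).l)
    (fun s => by omega) (fun t => by omega) ?_
  intro s t hs ht
  have e := h (Fin.ofNat 26 (min (5 * g + 1 + s) 25)) (Fin.ofNat 26 (min (5 * g' + 1 + t) 25))
  unfold entO at e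
  have e1 : ((r (Fin.ofNat 26 (min (5 * g + 1 + s) 25))).b : ℕ) = fr (5 * g + 1) := hgc s hs
  have e2 : ((c (Fin.ofNat 26 (min (5 * g' + 1 + t) 25))).b : ℕ) = fc (5 * g' + 1) :=
    hgc' t (by omega)
  rw [e1, e2] at e
  rw [e]
  have v1 : ((Fin.ofNat 26 (min (5 * g + 1 + s) 25) : Fin 26) : ℕ) = 5 * g + 1 + s := by
    simp only [Fin.ofNat]; omega
  have v2 : ((Fin.ofNat 26 (min (5 * g' + 1 + t) 25) : Fin 26) : ℕ) = 5 * g' + 1 + t := by
    simp only [Fin.ofNat]; omega
  have : Hp (Fin.ofNat 26 (min (5 * g + 1 + s) 25)) (Fin.ofNat 26 (min (5 * g' + 1 + t) 25))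
      = G s t := by
    unfold Hp Hn W
    rw [v1, v2]
    have c1 : 5 * g + 1 + s < 22 := by omega
    have c2 : 5 * g' + 1 + t < 22 := by omega
    have c3 : ¬ (5 * g + 1 + s = 21 ∨ 5 * g' + 1 + t = 21) := by omega
    have c4 : ¬ (5 * g + 1 + s = 0 ∨ 5 * g' + 1 + t = 0) := by omega
    have c5 : (5 * g + 1 + s - 1) % 5 = s := by omega
    have c6 : (5 * g' + 1 + t - 1) % 5 = t := by omega
    simp only [c1, c2, c3, c4, c5, c6, if_true, if_false]
  rw [this]

end copy

end Vale.Agent.P037h3
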