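import Mathlib
import Vale.Agent.P037_h3.Align

/-!
P037: alignment of copies and the centre lemma.
-/

namespace Vale.Agent.P037h3

variable {N K M m : ℕ} {r c : Fin 26 → Om N K M m}

theorem ent_act_col0 {b : ℕ} (hb : 22 ≤ b) {j : ℕ} {I J : Fin N → Fin K} {a e : ℕ}
    (h : ent (rowKd b) I a (.col j) J e) : j = 0 := by
  unfold rowKd at h
  split_ifs at h
  · omega
  · exact h.elim
  · exact h.elim
  · exact h
  · exact h

theorem ent_col_act0 {b : ℕ} (hb : 22 ≤ b) {i : ℕ} {I J : Fin N → Fin K} {a e : ℕ}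
    (h : ent (.col i) I a (colKd b) J e) : i = 0 := by
  unfold colKd at h
  split_ifs at h
  · omega
  · exact h.elim
  · exact h
  · exact h

/-- if row `21` is active then column `1` is active -/
theorem act_row_col (hc : StrictMono c)
    (h : ∀ i j, entO (r i) (c j) ↔ Hp i j = true)
    (h1 : 22 ≤ ((r 21).b : ℕ)) : 22 ≤ ((c 1).b : ℕ) := by
  by_contra hcon
  push Not at hcon
  have h01 : ((c 0).b : ℕ) < 22 :=
    lt_of_le_of_lt (br_mono hc (by decide : (0 : Fin 26) ≤ 1)) hcon
  have hlt : ((c 0).b : ℕ) < (c 1).b := col_strict hc h 0 h01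
  have e1 := (h 21 1).2 (by decide)
  unfold entO at e1
  rw [colKd_lt hcon] at e1
  have := ent_act_col0 h1 e1
  omega

/-- if column `21` is active then row `1` is active -/
theorem act_col_row (hr : StrictMono r)
    (h : ∀ i j, entO (r i) (c j) ↔ Hp i j = true)
    (h1 : 22 ≤ ((c 21).b : ℕ)) : 22 ≤ ((r 1).b : ℕ) := by
  by_contra hcon
  push Not at hcon
  have h01 : ((r 0).b : ℕ) < 22 :=
    lt_of_le_of_lt (br_mono hr (by decide : (0 : Fin 26) ≤ 1)) hcon
  have hlt : ((r 0).b : ℕ) < (r 1).b := row_strict hr h 0 h01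
  have e1 := (h 1 21).2 (by decide)
  unfold entO at e1
  rw [rowKd_lt hcon] at e1
  have := ent_col_act0 h1 e1
  omega

theorem r21_lt (hr : StrictMono r) (hc : StrictMono c)
    (h : ∀ i j, entO (r i) (c j) ↔ Hp i j = true) : ((r 21).b : ℕ) < 22 := by
  by_contra hcon
  push Not at hcon
  have h1 := act_row_col hc h hcon
  have h2 : 22 ≤ ((c 21).b : ℕ) := h1.trans (br_mono hc (by decide : (1 : Fin 26) ≤ 21))
  exact excl_act hr hc h (act_col_row hr h h2) h1

theorem c21_lt (hr : StrictMono r) (hc : StrictMono c)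
    (h : ∀ i j, entO (r i) (c j) ↔ Hp i j = true) : ((c 21).b : ℕ) < 22 := by
  by_contra hcon
  push Not at hcon
  have h1 := act_col_row hr h hcon
  have h2 : 22 ≤ ((r 21).b : ℕ) := h1.trans (br_mono hr (by decide : (1 : Fin 26) ≤ 21))
  exact excl_act hr hc h h1 (act_row_col hc h h2)

/-- a function on `Fin 26` that increases strictly as long as it is below `22` -/
theorem climb (f : Fin 26 → ℕ) (hm : ∀ i j, i ≤ j → f i ≤ f j)
    (hs : ∀ i : Fin 25, f i.castSucc < 22 → f i.castSucc < f i.succ) (h : f 21 < 22) :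
    f 0 = 0 ∧ 22 ≤ f 22 := by
  have key : ∀ i : ℕ, (hi : i ≤ 21) → f 0 + i ≤ f ⟨i, by omega⟩ := by
    intro i
    induction i with
    | zero => intro _; exact le_refl _
    | succ i ih =>
      intro hi
      have h1 := ih (by omega)
      have h2 : f ⟨i, by omega⟩ < 22 :=
        lt_of_le_of_lt (hm _ 21 (by rw [Fin.le_def]; show i ≤ 21; omega)) h
      have h3 := hs ⟨i, by omega⟩ h2
      have h4 : f ⟨i, by omega⟩ < f ⟨i + 1, by omega⟩ := h3
      omega
  have h21 : f 0 + 21 ≤ f 21 := key 21 (le_refl _)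
  have h22 : f 21 < f 22 := hs 21 h
  omega

theorem r_climb (hr : StrictMono r) (hc : StrictMono c)
    (h : ∀ i j, entO (r i) (c j) ↔ Hp i j = true) :
    ((r 0).b : ℕ) = 0 ∧ 22 ≤ ((r 22).b : ℕ) :=
  climb (fun i => ((r i).b : ℕ)) (fun _ _ hij => br_mono hr hij)
    (fun i hi => row_strict hr h i hi) (r21_lt hr hc h)

theorem c_climb (hr : StrictMono r) (hc : StrictMono c)
    (h : ∀ i j, entO (r i) (c j) ↔ Hp i j = true) :
    ((c 0).b : ℕ) = 0 ∧ 22 ≤ ((c 22).b : ℕ) :=
  climb (fun i => ((c i).b : ℕ)) (fun _ _ hij => br_mono hc hij)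
    (fun i hi => col_strict hc h i hi) (c21_lt hr hc h)

/-- the kinds of the four active rows -/
theorem row_kinds (hr : StrictMono r) (hc : StrictMono c)
    (h : ∀ i j, entO (r i) (c j) ↔ Hp i j = true) :
    22 ≤ ((r 22).b : ℕ) ∧ ((r 24).b : ℕ) ≤ 23 ∧ 24 ≤ ((r 25).b : ℕ) := by
  have hc0 := (c_climb hr hc h).1
  have hr22 := (r_climb hr hc h).2
  have e24 := mt (h 24 0).1 (by decide)
  have e25 := (h 25 0).2 (by decide)
  have hr24 : 22 ≤ ((r 24).b : ℕ) := hr22.trans (br_mono hr (by decide))
  have hr25 : 22 ≤ ((r 25).b : ℕ) := hr22.trans (br_mono hr (by decide))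
  unfold entO at e24 e25
  rw [hc0, colKd_lt (by norm_num)] at e24 e25
  refine ⟨hr22, ?_, ?_⟩
  · by_contra hcon
    push Not at hcon
    apply e24
    unfold rowKd
    split_ifs <;> first | omega | exact rfl
  · by_contra hcon
    push Not at hcon
    unfold rowKd at e25
    split_ifs at e25
    all_goals first | omega | exact e25.elim

/-- the kinds of the four active columns -/
theorem col_kinds (hr : StrictMono r) (hc : StrictMono c)
    (h : ∀ i j, entO (r i) (c j) ↔ Hp i j = true) :
    22 ≤ ((c 22).b : ℕ) ∧ ((c 24).b : ℕ) ≤ 22 ∧ 23 ≤ ((c 25).b : ℕ) := by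
  have hr0 := (r_climb hr hc h).1
  have hc22 := (c_climb hr hc h).2
  have e24 := mt (h 0 24).1 (by decide)
  have e25 := (h 0 25).2 (by decide)
  have hc24 : 22 ≤ ((c 24).b : ℕ) := hc22.trans (br_mono hc (by decide))
  have hc25 : 22 ≤ ((c 25).b : ℕ) := hc22.trans (br_mono hc (by decide))
  unfold entO at e24 e25
  rw [hr0, rowKd_lt (by norm_num)] at e24 e25
  refine ⟨hc22, ?_, ?_⟩
  · by_contra hcon
    push Not at hcon
    apply e24
    unfold colKd
    split_ifs <;> first | omega | exact rfl
  · by_contra hcon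
    push Not at hcon
    unfold colKd at e25
    split_ifs at e25
    all_goals first | omega | exact e25.elim

/-- The core combinatorial statement on leaves and classes. -/
theorem centre_core (hN : 0 < N)
    {Ip I' I3 J' Jq J3 Ie Je : Fin N → Fin K} {ap a' a3 b' bq b3 je ke : ℕ}
    (ha' : a' ≤ N) (hb' : b' ≤ N) (hke : ke ≤ N) (hje : je ≤ N)
    -- row sandwich
    (o1 : toLex Ip ≤ toLex I') (o2 : toLex I' ≤ toLex I3)
    (o3 : toLex Jq ≤ toLex J') (o4 : toLex J' ≤ toLex J3)
    (hp : ap + 1 = ke ∨ (ap = ke ∧ dig Ip ke = dig Je ke))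
    (hp' : a' + 1 = ke ∨ (a' = ke ∧ dig I' ke = dig Je ke))
    (hp3 : a3 + 1 = ke ∨ (a3 = ke ∧ dig I3 ke = dig Je ke))
    (hq : bq + 1 = je ∨ (bq = je ∧ dig Jq je = dig Ie je))
    (hq' : b' + 1 = je ∨ (b' = je ∧ dig J' je = dig Ie je))
    (hq3 : b3 + 1 = je ∨ (b3 = je ∧ dig J3 je = dig Ie je))
    (hee : je = ke → dig Ie je = dig Je ke)
    (h1 : pe (min ap b') Ip J') (h2 : pe (min a3 b') I3 J')
    (h3 : pe (min a' bq) I' Jq) (h4 : pe (min a' b3) I' J3)
    (hz : ¬ (¬ (a' = N ∧ b' = N) ∧ pe (min a' b') I' J')) : I' = J' := by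
  -- row sandwich
  have s1 : pe (min (a' - 1) b') I' J' := by
    have e1 : pe (min (a' - 1) b') Ip J' := h1.mono (by omega)
    have e2 : pe (min (a' - 1) b') I3 J' := h2.mono (by omega)
    exact (pe_sandwich o1 o2 (e1.trans e2.symm)).symm.trans e1
  have s2 : pe (min a' (b' - 1)) I' J' := by
    have e1 : pe (min a' (b' - 1)) I' Jq := h3.mono (by omega)
    have e2 : pe (min a' (b' - 1)) I' J3 := h4.mono (by omega)
    exact e1.trans (pe_sandwich o3 o4 (e1.symm.trans e2))
  have key : ¬ (a' = N ∧ b' = N) → ¬ pe (min a' b') I' J' := by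
    intro hne hpe
    exact hz ⟨hne, hpe⟩
  -- the case a' + 1 = ke
  have ca : a' = ke ∧ dig I' ke = dig Je ke := by
    rcases hp' with hh | hh
    · exfalso
      apply key (by omega)
      have e1 : pe (min a' b') Ip J' := h1.mono (by omega)
      have e2 : pe (min a' b') I3 J' := h2.mono (by omega)
      exact (pe_sandwich o1 o2 (e1.trans e2.symm)).symm.trans e1
    · exact hh
  have cb : b' = je ∧ dig J' je = dig Ie je := by
    rcases hq' with hh | hh
    · exfalso
      apply key (by omega)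
      have e1 : pe (min a' b') I' Jq := h3.mono (by omega)
      have e2 : pe (min a' b') I' J3 := h4.mono (by omega)
      exact e1.trans (pe_sandwich o3 o4 (e1.symm.trans e2))
    · exact hh
  -- positivity
  have pa : 0 < a' := by
    rcases Nat.eq_zero_or_pos a' with h0 | h0
    · exfalso
      apply key (by omega)
      rw [h0, Nat.zero_min]
      exact pe_zero _ _
    · exact h0
  have pb : 0 < b' := by
    rcases Nat.eq_zero_or_pos b' with h0 | h0
    · exfalso
      apply key (by omega)
      rw [h0, Nat.min_zero]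
      exact pe_zero _ _
    · exact h0
  rcases Nat.lt_trichotomy a' b' with hlt | heq | hgt
  · exact absurd (s2.mono (by omega)) (key (by omega))
  · -- equal depths
    have hd : dig I' a' = dig J' a' := by
      have e := hee (by omega)
      rw [← ca.1, ← cb.1] at e
      have e3 := ca.2
      have e4 := cb.2
      rw [← ca.1] at e3
      rw [← cb.1] at e4
      rw [e3, ← e, ← e4, heq]
    have hpe : pe a' I' J' := by
      obtain ⟨n, rfl⟩ : ∃ n, a' = n + 1 := ⟨a' - 1, by omega⟩
      exact pe_succ (s1.mono (by omega)) hd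
    by_cases hNN : a' = N ∧ b' = N
    · exact eq_of_pe (hpe.mono (by omega))
    · exact absurd (hpe.mono (by omega)) (key hNN)
  · exact absurd (s1.mono (by omega)) (key (by omega))

theorem centre (hN : 0 < N) (hr : StrictMono r) (hc : StrictMono c)
    (h : ∀ i j, entO (r i) (c j) ↔ Hp i j = true) : (r 23).l = (c 23).l := by
  obtain ⟨r22, r24, r25⟩ := row_kinds hr hc h
  obtain ⟨c22, c24, c25⟩ := col_kinds hr hc h
  have r2223 : ((r 22).b : ℕ) ≤ (r 23).b := br_mono hr (by decide)
  have r2324 : ((r 23).b : ℕ) ≤ (r 24).b := br_mono hr (by decide)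
  have c2223 : ((c 22).b : ℕ) ≤ (c 23).b := br_mono hc (by decide)
  have c2324 : ((c 23).b : ℕ) ≤ (c 24).b := br_mono hc (by decide)
  have kc22 : ((c 22).b : ℕ) = 22 := by omega
  have kc23 : ((c 23).b : ℕ) = 22 := by omega
  have kc24 : ((c 24).b : ℕ) = 22 := by omega
  have T22c : colKd 22 = .T := by simp [colKd]
  have T22r : rowKd 22 = .T := by simp [rowKd]
  have U23r : rowKd 23 = .U := by simp [rowKd]
  -- the centre is zero
  have hz := mt (h 23 23).1 (by decide)
  unfold entO at hz
  rw [kc23, T22c] at hz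
  have kr23 : ((r 23).b : ℕ) = 22 := by
    by_contra hne
    have : ((r 23).b : ℕ) = 23 := by omega
    rw [this, U23r] at hz
    exact hz trivial
  have kr22 : ((r 22).b : ℕ) = 22 := by omega
  rw [kr23, T22r] at hz
  have h2223 := (h 22 23).2 (by decide)
  have h2423 := (h 24 23).2 (by decide)
  have h2322 := (h 23 22).2 (by decide)
  have h2324 := (h 23 24).2 (by decide)
  have h2225 := (h 22 25).2 (by decide)
  have h2325 := (h 23 25).2 (by decide)
  have h2425 := (h 24 25).2 (by decide)
  have h2522 := (h 25 22).2 (by decide)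
  have h2523 := (h 25 23).2 (by decide)
  have h2524 := (h 25 24).2 (by decide)
  have h2525 := (h 25 25).2 (by decide)
  unfold entO at h2223 h2423 h2322 h2324 h2225 h2325 h2425 h2522 h2523 h2524 h2525
  rw [kr22, T22r] at h2223 h2225
  rw [kr23, T22r] at h2322 h2324 h2325
  rw [kc23, T22c] at h2223 h2423 h2523
  rw [kc22, T22c] at h2322 h2522
  rw [kc24, T22c] at h2324 h2524
  have hce : colKd ((c 25).b : ℕ) = .E ∨ colKd ((c 25).b : ℕ) = .F := by
    unfold colKd
    split_ifs <;> first | omega | simp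
  have hre : rowKd ((r 25).b : ℕ) = .E ∨ rowKd ((r 25).b : ℕ) = .F := by
    unfold rowKd
    split_ifs <;> first | omega | simp
  rcases hre with hre | hre
  · rcases hce with hce | hce
    · -- both of label kind
      rw [hre] at h2522 h2523 h2524 h2525
      rw [hce] at h2225 h2325 h2425 h2525
      have kr24 : ((r 24).b : ℕ) = 22 := by
        by_contra hne
        have : ((r 24).b : ℕ) = 23 := by omega
        rw [this, U23r] at h2425
        exact h2425
      rw [kr24, T22r] at h2423 h2425
      have o1 : toLex (r 22).l ≤ toLex (r 23).l :=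
        Om.l_le (hr.monotone (by decide)) (Fin.ext (by omega))
      have o2 : toLex (r 23).l ≤ toLex (r 24).l :=
        Om.l_le (hr.monotone (by decide)) (Fin.ext (by omega))
      have o3 : toLex (c 22).l ≤ toLex (c 23).l :=
        Om.l_le (hc.monotone (by decide)) (Fin.ext (by omega))
      have o4 : toLex (c 23).l ≤ toLex (c 24).l :=
        Om.l_le (hc.monotone (by decide)) (Fin.ext (by omega))
      have fin1 : ((r 23).c : ℕ) ≤ N := by omega
      have fin2 : ((c 23).c : ℕ) ≤ N := by omega
      have fin3 : ((c 25).c : ℕ) ≤ N := by omega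
      have fin4 : ((r 25).c : ℕ) ≤ N := by omega
      exact centre_core hN fin1 fin2 fin3 fin4 o1 o2 o3 o4 h2225 h2325 h2425 h2522 h2523 h2524
        (fun e => by have := h2525 e; rw [← e]; rw [← e] at this; exact this)
        h2223.2 h2423.2 h2322.2 h2324.2 hz
    · rw [hre, hce] at h2525
      exact h2525.elim
  · rcases hce with hce | hce
    · rw [hre, hce] at h2525
      exact h2525.elim
    · exfalso
      rw [hre] at h2523
      rw [hce] at h2225 h2325
      have e1 : ((r 22).c : ℕ) = N := h2225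
      have e2 : ((r 23).c : ℕ) = N := h2325
      have e3 : ((c 23).c : ℕ) = 0 ∨ ((c 23).c : ℕ) = N := h2523
      have e4 := h2223.1
      have e5 : ((c 23).c : ℕ) = 0 := by
        rcases e3 with e3 | e3
        · exact e3
        · exact absurd ⟨e1, e3⟩ e4
      apply hz
      refine ⟨fun hh => by omega, ?_⟩
      rw [e5, Nat.min_zero]
      exact pe_zero _ _

end Vale.Agent.P037h3
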