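import Mathlib
import Vale.Agent.P037_h3.Pattern

/-!
P037: the forcing chain.  A template of rows and columns depends on parameters
`I g h : Fin N → Fin K`, `s s' : Fin m`.  If a matrix `B` agrees with the model matrix on all
template entries except those in the special cell, then `B` contains a copy of the pattern.
-/

namespace Vale.Agent.P037h3

/-- how the leaf of a template element is obtained -/
inductive LT (N : ℕ)
  | spec
  | cst (v : Fin 3)
  | lab (j : Fin N)
  deriving DecidableEq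

/-- template element -/
structure TE (N M : ℕ) where
  /-- block -/
  b : Fin 26
  /-- leaf type -/
  t : LT N
  /-- round -/
  r : Fin M
  /-- class -/
  c : Fin (N + 1)
  deriving DecidableEq

variable {N K M m : ℕ}

/-- the special leaf: first digit `1` -/
def spLeaf (hN : 0 < N) (hK : 3 ≤ K) (I : Fin N → Fin K) : Fin N → Fin K :=
  Function.update I ⟨0, hN⟩ ⟨1, by omega⟩

/-- the leaf of a template element -/
def leafOf (hN : 0 < N) (hK : 3 ≤ K) (I g : Fin N → Fin K) : LT N → (Fin N → Fin K)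
  | .spec => spLeaf hN hK I
  | .cst v => Function.update g ⟨0, hN⟩ ⟨v, by omega⟩
  | .lab j => Function.update g j (spLeaf hN hK I j)

/-- the element of `Om` given by a template element -/
def elt (hN : 0 < N) (hK : 3 ≤ K) (I g : Fin N → Fin K) (s : Fin m) (t : TE N M) : Om N K M m :=
  ⟨t.b, leafOf hN hK I g t.t, t.r, t.c, s⟩

theorem ent_color_act {b : ℕ} (hb : 22 ≤ b) (i : ℕ) (I J : Fin N → Fin K) (a e : ℕ) :
    ent (.col i) I a (colKd b) J e ↔ (i = 0 ∧ 23 ≤ b) := by
  unfold colKd
  split_ifs with h1 h2 h3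
  · omega
  · subst h2
    simp [ent]
  · subst h3
    simp [ent]
  · simp only [ent]
    omega

theorem ent_act_color {b : ℕ} (hb : 22 ≤ b) (j : ℕ) (I J : Fin N → Fin K) (a e : ℕ) :
    ent (rowKd b) I a (.col j) J e ↔ (j = 0 ∧ 24 ≤ b) := by
  unfold rowKd
  split_ifs with h1 h2 h3 h4
  · omega
  · subst h2
    simp [ent]
  · subst h3
    simp [ent]
  · subst h4
    simp [ent]
  · simp only [ent]
    omega

theorem lt_of_first (hN : 0 < N) {x y : Fin N → Fin K} (h : x ⟨0, hN⟩ < y ⟨0, hN⟩) :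
    toLex x < toLex y := by
  refine ⟨⟨0, hN⟩, ?_, h⟩
  intro j hj
  exact absurd hj (by simp [Fin.lt_def])

theorem dig_update_same {g : Fin N → Fin K} {j : Fin N} {v : Fin K} {l : ℕ} (hl : l = j + 1) :
    dig (Function.update g j v) l = v := by
  subst hl
  have : 0 < (j : ℕ) + 1 ∧ (j : ℕ) + 1 ≤ N := by omega
  simp [dig]

theorem dig_eq {g : Fin N → Fin K} {j : Fin N} {l : ℕ} (hl : l = j + 1) :
    dig g l = g j := by
  subst hl
  have : 0 < (j : ℕ) + 1 ∧ (j : ℕ) + 1 ≤ N := by omega
  simp [dig]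

/-- selection of `26` template elements: `22` colours followed by four given ones -/
def sel (hM : 0 < M) (F : Fin 4 → TE N M) (i : Fin 26) : TE N M :=
  if h : (i : ℕ) < 22 then ⟨i, .cst 0, ⟨0, hM⟩, 0⟩ else F ⟨i - 22, by omega⟩

section

variable (hN : 0 < N) (hK : 3 ≤ K) (hM : 0 < M) (I g h : Fin N → Fin K) (s s' : Fin m)
  (B : Om N K M m → Om N K M m → Bool)

theorem sel_strictMono {F : Fin 4 → TE N M}
    (hF : StrictMono fun u => elt hN hK I g s (F u)) (h0 : 22 ≤ ((F 0).b : ℕ)) :
    StrictMono fun i => elt hN hK I g s (sel hM F i) := by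
  rw [Fin.strictMono_iff_lt_succ]
  intro i
  rcases Nat.lt_trichotomy (i : ℕ) 21 with h1 | h1 | h1
  · apply Om.lt_of_b
    have a1 : ((i.castSucc : Fin 26) : ℕ) < 22 := by simp; omega
    have a2 : ((i.succ : Fin 26) : ℕ) < 22 := by simp; omega
    simp only [elt, sel, a1, a2, dite_true]
    exact Fin.castSucc_lt_succ
  · apply Om.lt_of_b
    have a1 : ((i.castSucc : Fin 26) : ℕ) < 22 := by simp; omega
    have a2 : ¬ ((i.succ : Fin 26) : ℕ) < 22 := by simp; omega
    simp only [elt, sel, a1, a2, dite_true, dite_false]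
    have a3 : (⟨((i.succ : Fin 26) : ℕ) - 22, by omega⟩ : Fin 4) = 0 := by
      apply Fin.ext; simp; omega
    rw [a3, Fin.lt_def]
    simp
    omega
  · have a1 : ¬ ((i.castSucc : Fin 26) : ℕ) < 22 := by simp; omega
    have a2 : ¬ ((i.succ : Fin 26) : ℕ) < 22 := by simp; omega
    simp only [sel, a1, a2, dite_false]
    apply hF
    rw [Fin.lt_def]
    simp
    omega

include hM in
theorem build_copy {F F' : Fin 4 → TE N M}
    (good : ∀ t t' : TE N M, ¬ (t.t = .spec ∧ t'.t = .spec) →
      (B (elt hN hK I g s t) (elt hN hK I h s' t') = true ↔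
        entO (elt hN hK I g s t) (elt hN hK I h s' t')))
    (hF : StrictMono fun u => elt hN hK I g s (F u)) (h0 : 22 ≤ ((F 0).b : ℕ))
    (hF' : StrictMono fun u => elt hN hK I h s' (F' u)) (h0' : 22 ≤ ((F' 0).b : ℕ))
    (hk : ∀ u, 24 ≤ ((F u).b : ℕ) ↔ u = 3) (hk' : ∀ u, 23 ≤ ((F' u).b : ℕ) ↔ u = 3)
    (hent : ∀ u v, B (elt hN hK I g s (F u)) (elt hN hK I h s' (F' v)) =
      decide (¬ (u = 1 ∧ v = 1))) :
    ∃ r c : Fin 26 → Om N K M m, StrictMono r ∧ StrictMono c ∧
      ∀ i j, B (r i) (c j) = Hp i j := by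
  refine ⟨fun i => elt hN hK I g s (sel hM F i), fun i => elt hN hK I h s' (sel hM F' i),
    sel_strictMono hN hK hM I g s hF h0, sel_strictMono hN hK hM I h s' hF' h0', ?_⟩
  have hb : ∀ u, 22 ≤ ((F u).b : ℕ) := fun u =>
    h0.trans (Om.b_le (hF.monotone (Fin.zero_le u)))
  have hb' : ∀ u, 22 ≤ ((F' u).b : ℕ) := fun u =>
    h0'.trans (Om.b_le (hF'.monotone (Fin.zero_le u)))
  intro i j
  by_cases hi : (i : ℕ) < 22
  · have e1 : sel hM F i = ⟨i, .cst 0, ⟨0, hM⟩, 0⟩ := by simp [sel, hi]
    by_cases hj : (j : ℕ) < 22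
    · have e2 : sel hM F' j = ⟨j, .cst 0, ⟨0, hM⟩, 0⟩ := by simp [sel, hj]
      simp only [e1, e2]
      rw [Bool.eq_iff_iff, good _ _ (by simp)]
      simp only [entO, elt, rowKd_lt', colKd_lt', hi, hj, ent, Hp, Hn, if_true]
    · have e2 : sel hM F' j = F' ⟨j - 22, by omega⟩ := by simp [sel, hj]
      simp only [e1, e2]
      rw [Bool.eq_iff_iff, good _ _ (by simp)]
      simp only [entO, elt, rowKd_lt', hi, Hp, Hn, if_true, hj, if_false]
      rw [ent_color_act (hb' _), hk' _]
      simp only [decide_eq_true_eq, Fin.ext_iff]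
      constructor
      · rintro ⟨a, b⟩
        refine ⟨a, ?_⟩
        have : (j : ℕ) - 22 = 3 := b
        omega
      · rintro ⟨a, b⟩
        refine ⟨a, ?_⟩
        show (j : ℕ) - 22 = 3
        omega
  · have e1 : sel hM F i = F ⟨i - 22, by omega⟩ := by simp [sel, hi]
    by_cases hj : (j : ℕ) < 22
    · have e2 : sel hM F' j = ⟨j, .cst 0, ⟨0, hM⟩, 0⟩ := by simp [sel, hj]
      simp only [e1, e2]
      rw [Bool.eq_iff_iff, good _ _ (by simp)]
      simp only [entO, elt, colKd_lt', hi, Hp, Hn, if_true, hj, if_false]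
      rw [ent_act_color (hb _), hk _]
      simp only [decide_eq_true_eq, Fin.ext_iff]
      constructor
      · rintro ⟨a, b⟩
        refine ⟨a, ?_⟩
        have : (i : ℕ) - 22 = 3 := b
        omega
      · rintro ⟨a, b⟩
        refine ⟨a, ?_⟩
        show (i : ℕ) - 22 = 3
        omega
    · have e2 : sel hM F' j = F' ⟨j - 22, by omega⟩ := by simp [sel, hj]
      simp only [e1, e2]
      rw [hent]
      simp only [Hp, Hn, hi, hj, if_false, Fin.ext_iff]
      congr 1
      apply propext
      constructor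
      · rintro a ⟨b, b'⟩
        apply a
        constructor
        · show (i : ℕ) - 22 = 1
          omega
        · show (j : ℕ) - 22 = 1
          omega
      · rintro a ⟨b, b'⟩
        apply a
        have b1 : (i : ℕ) - 22 = 1 := b
        have b2 : (j : ℕ) - 22 = 1 := b'
        omega

end

end Vale.Agent.P037h3
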