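import Mathlib
import Vale.Agent.P037_h3.Chain

/-!
P037: the forcing chain, continued.
-/

namespace Vale.Agent.P037h3

variable {N K M m : ℕ}

/-- `x` is a tree element of class `a`: a root element outside the special leaf if `a = 0`, the
element of the special cell in round `ρ` otherwise -/
def IsT (x : TE N M) (a ρ : ℕ) : Prop :=
  (a = 0 ∧ x.b = 22 ∧ (x.c : ℕ) = 0 ∧ x.t ≠ .spec) ∨
    (1 ≤ a ∧ x.b = 22 ∧ (x.c : ℕ) = a ∧ x.t = .spec ∧ (x.r : ℕ) = ρ)

theorem IsT.c_eq {x : TE N M} {a ρ : ℕ} (h : IsT x a ρ) : (x.c : ℕ) = a := by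
  rcases h with h | h
  · rw [h.1]; exact h.2.2.1
  · exact h.2.2.1

theorem IsT.b_eq {x : TE N M} {a ρ : ℕ} (h : IsT x a ρ) : x.b = 22 := by
  rcases h with h | h
  · exact h.2.1
  · exact h.2.1

/-- element of the special cell -/
def spE (r a : ℕ) (hr : r < M) (ha : a < N + 1) : TE N M := ⟨22, .spec, ⟨r, hr⟩, ⟨a, ha⟩⟩

/-- element before (`v = 0`) or after (`v = 2`) an element of class `a` in the special cell -/
def crn (hM : 0 < M) (v : Fin 3) (r a : ℕ) (hr : r < M) (ha : a < N + 1) : TE N M :=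
  if a = 0 then ⟨22, .cst v, ⟨0, hM⟩, 0⟩ else ⟨22, .spec, ⟨r, hr⟩, ⟨a, ha⟩⟩

/-- label element of level `a` in block `b` -/
def lbE (hM : 0 < M) (b : Fin 26) (a : ℕ) (ha : a < N + 1) (h1 : 1 ≤ a) : TE N M :=
  ⟨b, .lab ⟨a - 1, by omega⟩, ⟨0, hM⟩, ⟨a, ha⟩⟩

theorem isT_spE {r a : ℕ} (hr : r < M) (ha : a < N + 1) (h1 : 1 ≤ a) :
    IsT (spE r a hr ha) a r := Or.inr ⟨h1, rfl, rfl, rfl, rfl⟩

theorem isT_crn (hM : 0 < M) (v : Fin 3) {r a : ℕ} (hr : r < M) (ha : a < N + 1) :
    IsT (crn hM v r a hr ha) a r := by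
  unfold crn
  split_ifs with h
  · exact Or.inl ⟨h, rfl, rfl, by simp⟩
  · exact Or.inr ⟨by omega, rfl, rfl, rfl, rfl⟩

section

variable (hN : 0 < N) (hK : 3 ≤ K) (hM : 0 < M) (I g h : Fin N → Fin K) (s s' : Fin m)
  (B : Om N K M m → Om N K M m → Bool)

theorem sp_digit : spLeaf hN hK I ⟨0, hN⟩ = ⟨1, by omega⟩ := by
  simp [spLeaf]

theorem crn_lt {r a : ℕ} (hr : r < M) (ha : a < N + 1) {r1 : ℕ} (hr1 : r1 < M) {a1 : ℕ}
    (ha1 : a1 < N + 1) (hlt : r1 < r) :
    elt hN hK I g s (crn hM 0 r1 a1 hr1 ha1) < elt hN hK I g s (spE r a hr ha) := by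
  unfold crn
  split_ifs with h0
  · apply Om.lt_of_l
    · rfl
    · apply lt_of_first hN
      simp [elt, spE, leafOf, spLeaf, Fin.lt_def]
  · apply Om.lt_of_r
    · rfl
    · rfl
    · exact Fin.mk_lt_mk.mpr hlt

theorem lt_crn {r a : ℕ} (hr : r < M) (ha : a < N + 1) {r1 : ℕ} (hr1 : r1 < M) {a1 : ℕ}
    (ha1 : a1 < N + 1) (hlt : r < r1) :
    elt hN hK I g s (spE r a hr ha) < elt hN hK I g s (crn hM 2 r1 a1 hr1 ha1) := by
  unfold crn
  split_ifs with h0
  · apply Om.lt_of_l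
    · rfl
    · apply lt_of_first hN
      simp [elt, spE, leafOf, spLeaf, Fin.lt_def]
  · apply Om.lt_of_r
    · rfl
    · rfl
    · exact Fin.mk_lt_mk.mpr hlt

theorem mono4 {r a : ℕ} (hr0 : 0 < r) (hr : r + 1 < M) (ha : a < N + 1) {Q : TE N M}
    (hQ : 22 < (Q.b : ℕ)) :
    StrictMono fun u : Fin 4 => elt hN hK I g s
      ((![crn hM 0 (r - 1) (a - 1) (by omega) (by omega), spE r a (by omega) ha,
        crn hM 2 (r + 1) (a - 1) hr (by omega), Q] : Fin 4 → TE N M) u) := by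
  rw [Fin.strictMono_iff_lt_succ]
  intro i
  fin_cases i
  · exact crn_lt hN hK hM I g s (by omega) ha (by omega) (by omega) (by omega)
  · exact lt_crn hN hK hM I g s (by omega) ha hr (by omega) (by omega)
  · apply Om.lt_of_b
    show (crn hM 2 (r + 1) (a - 1) hr (by omega) : TE N M).b < Q.b
    rw [(isT_crn hM 2 hr _).b_eq, Fin.lt_def]
    exact hQ

/-- root entries are ones -/
theorem entO_root {x y : TE N M} (hx : x.b = 22) (hy : y.b = 22)
    (h0 : (x.c : ℕ) = 0 ∨ (y.c : ℕ) = 0) :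
    entO (elt hN hK I g s x) (elt hN hK I h s' y) := by
  have T22c : colKd ((22 : Fin 26) : ℕ) = .T := by simp [colKd]
  have T22r : rowKd ((22 : Fin 26) : ℕ) = .T := by simp [rowKd]
  simp only [entO, elt, hx, hy, T22c, T22r, ent]
  refine ⟨by omega, ?_⟩
  rcases h0 with h0 | h0
  · rw [h0, Nat.zero_min]; exact pe_zero _ _
  · rw [h0, Nat.min_zero]; exact pe_zero _ _

/-- tree row against label column -/
theorem entO_TE {x : TE N M} {a : ℕ} (ha : a < N + 1) (h1 : 1 ≤ a) (hx : x.b = 22)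
    (hc : (x.c : ℕ) + 1 = a ∨ ((x.c : ℕ) = a ∧ x.t = .spec)) :
    entO (elt hN hK I g s x) (elt hN hK I h s' (lbE hM 23 a ha h1)) := by
  have T22r : rowKd ((22 : Fin 26) : ℕ) = .T := by simp [rowKd]
  have E23c : colKd ((23 : Fin 26) : ℕ) = .E := by simp [colKd]
  simp only [entO, elt, hx, lbE, T22r, E23c, ent]
  rcases hc with hc | ⟨hc, ht⟩
  · exact Or.inl hc
  · refine Or.inr ⟨hc, ?_⟩
    rw [ht]
    simp only [leafOf]
    rw [dig_update_same (j := ⟨a - 1, by omega⟩) (by simp; omega),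
      dig_eq (j := ⟨a - 1, by omega⟩) (by simp; omega)]

/-- label row against tree column -/
theorem entO_ET {y : TE N M} {b : ℕ} (hb : b < N + 1) (h1 : 1 ≤ b) (hy : y.b = 22)
    (hc : (y.c : ℕ) + 1 = b ∨ ((y.c : ℕ) = b ∧ y.t = .spec)) :
    entO (elt hN hK I g s (lbE hM 24 b hb h1)) (elt hN hK I h s' y) := by
  have T22c : colKd ((22 : Fin 26) : ℕ) = .T := by simp [colKd]
  have E24r : rowKd ((24 : Fin 26) : ℕ) = .E := by simp [rowKd]
  simp only [entO, elt, hy, lbE, T22c, E24r, ent]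
  rcases hc with hc | ⟨hc, ht⟩
  · exact Or.inl hc
  · refine Or.inr ⟨hc, ?_⟩
    rw [ht]
    simp only [leafOf]
    rw [dig_update_same (j := ⟨b - 1, by omega⟩) (by simp; omega),
      dig_eq (j := ⟨b - 1, by omega⟩) (by simp; omega)]

/-- label row against label column -/
theorem entO_EE {a b : ℕ} (ha : a < N + 1) (h1 : 1 ≤ a) (hb : b < N + 1) (h2 : 1 ≤ b) :
    entO (elt hN hK I g s (lbE hM 24 b hb h2)) (elt hN hK I h s' (lbE hM 23 a ha h1)) := by
  have E23c : colKd ((23 : Fin 26) : ℕ) = .E := by simp [colKd]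
  have E24r : rowKd ((24 : Fin 26) : ℕ) = .E := by simp [rowKd]
  simp only [entO, elt, lbE, E23c, E24r, ent]
  intro hab
  subst hab
  simp only [leafOf]
  rw [dig_update_same (j := ⟨b - 1, by omega⟩) (by simp; omega),
    dig_update_same (j := ⟨b - 1, by omega⟩) (by simp; omega)]

include hM in
theorem chain
    (good : ∀ t t' : TE N M, ¬ (t.t = .spec ∧ t'.t = .spec) →
      (B (elt hN hK I g s t) (elt hN hK I h s' t') = true ↔
        entO (elt hN hK I g s t) (elt hN hK I h s' t')))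
    (hfree : ¬ ∃ r c : Fin 26 → Om N K M m, StrictMono r ∧ StrictMono c ∧
      ∀ i j, B (r i) (c j) = Hp i j) :
    ∀ n a b r r' : ℕ, a + b = n → 1 ≤ a → 1 ≤ b → (ha : a < N + 1) → (hb : b < N + 1) →
      n ≤ r → n ≤ r' → (hr : r + n < M) → (hr' : r' + n < M) →
      B (elt hN hK I g s (spE r a (by omega) ha)) (elt hN hK I h s' (spE r' b (by omega) hb))
        = true := by
  intro n
  induction n using Nat.strong_induction_on with
  | _ n ih =>
  intro a b r r' hn ha1 hb1 ha hb hr1 hr1' hr hr'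
  by_contra hcon
  rw [Bool.not_eq_true] at hcon
  -- all tree entries of smaller type are ones
  have small : ∀ (x y : TE N M) (a' b' ρ ρ' : ℕ), IsT x a' ρ → IsT y b' ρ' → a' + b' < n →
      a' + b' ≤ ρ → a' + b' ≤ ρ' → ρ + (a' + b') < M → ρ' + (a' + b') < M →
      B (elt hN hK I g s x) (elt hN hK I h s' y) = true := by
    intro x y a' b' ρ ρ' hx hy hlt w1 w2 w3 w4
    by_cases h0 : a' = 0 ∨ b' = 0
    · rw [good x y ?_]
      · apply entO_root hN hK I g h s s' hx.b_eq hy.b_eq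
        rw [hx.c_eq, hy.c_eq]
        exact h0
      · rintro ⟨t1, t2⟩
        rcases h0 with h0 | h0
        · rcases hx with hx | hx
          · exact hx.2.2.2 t1
          · omega
        · rcases hy with hy | hy
          · exact hy.2.2.2 t2
          · omega
    · push Not at h0
      have hx' : x = spE ρ a' (by omega) (by have := hx.c_eq; omega) := by
        rcases hx with hx | hx
        · omega
        · cases x
          simp only [spE, TE.mk.injEq, Fin.ext_iff] at hx ⊢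
          exact ⟨hx.2.1, hx.2.2.2.1, hx.2.2.2.2, hx.2.2.1⟩
      have hy' : y = spE ρ' b' (by omega) (by have := hy.c_eq; omega) := by
        rcases hy with hy | hy
        · omega
        · cases y
          simp only [spE, TE.mk.injEq, Fin.ext_iff] at hy ⊢
          exact ⟨hy.2.1, hy.2.2.2.1, hy.2.2.2.2, hy.2.2.1⟩
      rw [hx', hy']
      exact ih (a' + b') hlt a' b' ρ ρ' rfl (by omega) (by omega) _ _ w1 w2 w3 w4
  apply hfree
  have iP := isT_crn (N := N) hM 0 (r := r - 1) (a := a - 1) (by omega) (by omega)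
  have iP3 := isT_crn (N := N) hM 2 (r := r + 1) (a := a - 1) (by omega) (by omega)
  have iP' := isT_spE (N := N) (M := M) (r := r) (a := a) (by omega) ha ha1
  have jP := isT_crn (N := N) hM 0 (r := r' - 1) (a := b - 1) (by omega) (by omega)
  have jP3 := isT_crn (N := N) hM 2 (r := r' + 1) (a := b - 1) (by omega) (by omega)
  have jP' := isT_spE (N := N) (M := M) (r := r') (a := b) (by omega) hb hb1
  refine build_copy hN hK hM I g h s s' B good
    (mono4 hN hK hM I g s (r := r) (a := a) (by omega) (by omega) ha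
      (Q := lbE hM 24 b hb hb1) (by simp [lbE]))
    (by
      show 22 ≤ ((crn hM 0 (r - 1) (a - 1) _ _ : TE N M).b : ℕ)
      rw [iP.b_eq]; rfl)
    (mono4 hN hK hM I h s' (r := r') (a := b) (by omega) (by omega) hb
      (Q := lbE hM 23 a ha ha1) (by simp [lbE]))
    (by
      show 22 ≤ ((crn hM 0 (r' - 1) (b - 1) _ _ : TE N M).b : ℕ)
      rw [jP.b_eq]; rfl) ?_ ?_ ?_
  · intro u
    fin_cases u
    · show 24 ≤ ((crn hM 0 (r - 1) (a - 1) _ _ : TE N M).b : ℕ) ↔ _
      rw [iP.b_eq]; decide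
    · show 24 ≤ ((spE r a _ ha : TE N M).b : ℕ) ↔ _
      rw [iP'.b_eq]; decide
    · show 24 ≤ ((crn hM 2 (r + 1) (a - 1) _ _ : TE N M).b : ℕ) ↔ _
      rw [iP3.b_eq]; decide
    · simp [lbE]
  · intro u
    fin_cases u
    · show 23 ≤ ((crn hM 0 (r' - 1) (b - 1) _ _ : TE N M).b : ℕ) ↔ _
      rw [jP.b_eq]; decide
    · show 23 ≤ ((spE r' b _ hb : TE N M).b : ℕ) ↔ _
      rw [jP'.b_eq]; decide
    · show 23 ≤ ((crn hM 2 (r' + 1) (b - 1) _ _ : TE N M).b : ℕ) ↔ _
      rw [jP3.b_eq]; decide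
    · simp [lbE]
  · have lab_ne : ∀ (bl : Fin 26) (l : ℕ) (hl : l < N + 1) (h1 : 1 ≤ l),
        (lbE hM bl l hl h1 : TE N M).t ≠ .spec := by
      intro bl l hl h1
      simp [lbE]
    -- tree row against label column
    have rowlab : ∀ (x : TE N M) (ρ : ℕ), (IsT x (a - 1) ρ ∨ IsT x a ρ) →
        B (elt hN hK I g s x) (elt hN hK I h s' (lbE hM 23 a ha ha1)) = true := by
      intro x ρ hx
      rw [good _ _ (fun hh => lab_ne _ _ _ _ hh.2)]
      rcases hx with hx | hx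
      · apply entO_TE hN hK hM I g h s s' ha ha1 hx.b_eq
        left
        rw [hx.c_eq]
        omega
      · apply entO_TE hN hK hM I g h s s' ha ha1 hx.b_eq
        right
        refine ⟨hx.c_eq, ?_⟩
        rcases hx with hx | hx
        · omega
        · exact hx.2.2.2.1
    have labcol : ∀ (y : TE N M) (ρ : ℕ), (IsT y (b - 1) ρ ∨ IsT y b ρ) →
        B (elt hN hK I g s (lbE hM 24 b hb hb1)) (elt hN hK I h s' y) = true := by
      intro y ρ hy
      rw [good _ _ (fun hh => lab_ne _ _ _ _ hh.1)]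
      rcases hy with hy | hy
      · apply entO_ET hN hK hM I g h s s' hb hb1 hy.b_eq
        left
        rw [hy.c_eq]
        omega
      · apply entO_ET hN hK hM I g h s s' hb hb1 hy.b_eq
        right
        refine ⟨hy.c_eq, ?_⟩
        rcases hy with hy | hy
        · omega
        · exact hy.2.2.2.1
    intro u v
    fin_cases u <;> fin_cases v
    · exact small _ _ (a - 1) (b - 1) (r - 1) (r' - 1) iP jP (by omega) (by omega) (by omega) (by omega) (by omega)
    · exact small _ _ (a - 1) b (r - 1) r' iP jP' (by omega) (by omega) (by omega) (by omega) (by omega)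
    · exact small _ _ (a - 1) (b - 1) (r - 1) (r' + 1) iP jP3 (by omega) (by omega) (by omega) (by omega) (by omega)
    · exact rowlab _ _ (Or.inl iP)
    · exact small _ _ a (b - 1) r (r' - 1) iP' jP (by omega) (by omega) (by omega) (by omega) (by omega)
    · exact hcon
    · exact small _ _ a (b - 1) r (r' + 1) iP' jP3 (by omega) (by omega) (by omega) (by omega) (by omega)
    · exact rowlab _ _ (Or.inr iP')
    · exact small _ _ (a - 1) (b - 1) (r + 1) (r' - 1) iP3 jP (by omega) (by omega) (by omega) (by omega) (by omega)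
    · exact small _ _ (a - 1) b (r + 1) r' iP3 jP' (by omega) (by omega) (by omega) (by omega) (by omega)
    · exact small _ _ (a - 1) (b - 1) (r + 1) (r' + 1) iP3 jP3 (by omega) (by omega) (by omega) (by omega) (by omega)
    · exact rowlab _ _ (Or.inl iP3)
    · exact labcol _ _ (Or.inl jP)
    · exact labcol _ _ (Or.inr jP')
    · exact labcol _ _ (Or.inl jP3)
    · exact (good (lbE hM 24 b hb hb1) (lbE hM 23 a ha ha1)
        (fun hh => lab_ne _ _ _ _ hh.1)).2 (entO_EE hN hK hM I g h s s' ha ha1 hb hb1)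

include hM in
/-- the end of the chain: a matrix which is good on the template contains a copy -/
theorem exists_copy (hM4 : 4 * N < M)
    (good : ∀ t t' : TE N M, ¬ (t.t = .spec ∧ t'.t = .spec) →
      (B (elt hN hK I g s t) (elt hN hK I h s' t') = true ↔
        entO (elt hN hK I g s t) (elt hN hK I h s' t'))) :
    ∃ r c : Fin 26 → Om N K M m, StrictMono r ∧ StrictMono c ∧
      ∀ i j, B (r i) (c j) = Hp i j := by
  by_contra hfree
  have hch := chain hN hK hM I g h s s' B good hfree (2 * N) N N (2 * N) (2 * N) (by ring) hN hN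
    (by omega) (by omega) (le_refl _) (le_refl _) (by omega) (by omega)
  set S : TE N M := spE (2 * N) N (by omega) (by omega) with hS
  apply hfree
  have T22c : colKd ((22 : Fin 26) : ℕ) = .T := by simp [colKd]
  have T22r : rowKd ((22 : Fin 26) : ℕ) = .T := by simp [rowKd]
  have U23r : rowKd ((23 : Fin 26) : ℕ) = .U := by simp [rowKd]
  have F25r : rowKd ((25 : Fin 26) : ℕ) = .F := by simp [rowKd]
  have F24c : colKd ((24 : Fin 26) : ℕ) = .F := by simp [colKd]
  refine build_copy hN hK hM I g h s s' B (F := ![S, ⟨22, .cst 2, ⟨0, hM⟩, Fin.last N⟩,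
      ⟨23, .cst 0, ⟨0, hM⟩, 0⟩, ⟨25, .cst 0, ⟨0, hM⟩, 0⟩])
    (F' := ![⟨22, .cst 0, ⟨0, hM⟩, 0⟩, S, ⟨22, .cst 2, ⟨0, hM⟩, 0⟩, ⟨24, .cst 0, ⟨0, hM⟩, 0⟩])
    good ?_ ?_ ?_ ?_ ?_ ?_ ?_
  · rw [Fin.strictMono_iff_lt_succ]
    intro i
    fin_cases i
    · apply Om.lt_of_l
      · rfl
      · apply lt_of_first hN
        simp [elt, hS, spE, leafOf, spLeaf, Fin.lt_def]
    · apply Om.lt_of_b
      exact (by decide : (22 : Fin 26) < 23)
    · apply Om.lt_of_b
      exact (by decide : (23 : Fin 26) < 25)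
  · exact (by decide : 22 ≤ ((22 : Fin 26) : ℕ))
  · rw [Fin.strictMono_iff_lt_succ]
    intro i
    fin_cases i
    · apply Om.lt_of_l
      · rfl
      · apply lt_of_first hN
        simp [elt, hS, spE, leafOf, spLeaf, Fin.lt_def]
    · apply Om.lt_of_l
      · rfl
      · apply lt_of_first hN
        simp [elt, hS, spE, leafOf, spLeaf, Fin.lt_def]
    · apply Om.lt_of_b
      exact (by decide : (22 : Fin 26) < 24)
  · exact (by decide : 22 ≤ ((22 : Fin 26) : ℕ))
  · intro u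
    fin_cases u <;> simp [hS, spE]
  · intro u
    fin_cases u <;> simp [hS, spE]
  · have gd : ∀ t t' : TE N M, ¬ (t.t = .spec ∧ t'.t = .spec) →
        entO (elt hN hK I g s t) (elt hN hK I h s' t') →
        B (elt hN hK I g s t) (elt hN hK I h s' t') = true :=
      fun t t' h1 h2 => (good t t' h1).2 h2
    have gd' : ∀ t t' : TE N M, ¬ (t.t = .spec ∧ t'.t = .spec) →
        ¬ entO (elt hN hK I g s t) (elt hN hK I h s' t') →
        B (elt hN hK I g s t) (elt hN hK I h s' t') = false := by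
      intro t t' h1 h2
      rw [← Bool.not_eq_true]
      exact mt (good t t' h1).1 h2
    have cS : (S.c : ℕ) = N := rfl
    intro u v
    fin_cases u <;> fin_cases v
    -- row `S`
    · exact gd S ⟨22, .cst 0, ⟨0, hM⟩, 0⟩ (by simp)
        (entO_root hN hK I g h s s' rfl rfl (Or.inr rfl))
    · exact hch
    · exact gd S ⟨22, .cst 2, ⟨0, hM⟩, 0⟩ (by simp)
        (entO_root hN hK I g h s s' rfl rfl (Or.inr rfl))
    · refine gd S ⟨24, .cst 0, ⟨0, hM⟩, 0⟩ (by simp) ?_
      simp only [entO, elt, hS, spE, T22r, F24c, ent]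
    -- row `deepR`
    · exact gd ⟨22, .cst 2, ⟨0, hM⟩, Fin.last N⟩ ⟨22, .cst 0, ⟨0, hM⟩, 0⟩ (by simp)
        (entO_root hN hK I g h s s' rfl rfl (Or.inr rfl))
    · refine gd' ⟨22, .cst 2, ⟨0, hM⟩, Fin.last N⟩ S (by simp) ?_
      simp only [entO, elt, hS, spE, T22r, T22c, ent]
      intro hh
      exact hh.1 ⟨rfl, trivial⟩
    · exact gd ⟨22, .cst 2, ⟨0, hM⟩, Fin.last N⟩ ⟨22, .cst 2, ⟨0, hM⟩, 0⟩ (by simp)
        (entO_root hN hK I g h s s' rfl rfl (Or.inr rfl))
    · refine gd ⟨22, .cst 2, ⟨0, hM⟩, Fin.last N⟩ ⟨24, .cst 0, ⟨0, hM⟩, 0⟩ (by simp) ?_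
      simp only [entO, elt, T22r, F24c, ent]
      rfl
    -- row `U`
    · refine gd ⟨23, .cst 0, ⟨0, hM⟩, 0⟩ ⟨22, .cst 0, ⟨0, hM⟩, 0⟩ (by simp) ?_
      simp only [entO, elt, U23r, T22c, ent]
    · refine gd ⟨23, .cst 0, ⟨0, hM⟩, 0⟩ S (by simp) ?_
      simp only [entO, elt, hS, spE, U23r, T22c, ent]
    · refine gd ⟨23, .cst 0, ⟨0, hM⟩, 0⟩ ⟨22, .cst 2, ⟨0, hM⟩, 0⟩ (by simp) ?_
      simp only [entO, elt, U23r, T22c, ent]
    · refine gd ⟨23, .cst 0, ⟨0, hM⟩, 0⟩ ⟨24, .cst 0, ⟨0, hM⟩, 0⟩ (by simp) ?_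
      simp only [entO, elt, U23r, F24c, ent]
    -- row `F`
    · refine gd ⟨25, .cst 0, ⟨0, hM⟩, 0⟩ ⟨22, .cst 0, ⟨0, hM⟩, 0⟩ (by simp) ?_
      simp only [entO, elt, F25r, T22c, ent]
      left; rfl
    · refine gd ⟨25, .cst 0, ⟨0, hM⟩, 0⟩ S (by simp) ?_
      simp only [entO, elt, hS, spE, F25r, T22c, ent]
      right; trivial
    · refine gd ⟨25, .cst 0, ⟨0, hM⟩, 0⟩ ⟨22, .cst 2, ⟨0, hM⟩, 0⟩ (by simp) ?_
      simp only [entO, elt, F25r, T22c, ent]
      left; rfl
    · refine gd ⟨25, .cst 0, ⟨0, hM⟩, 0⟩ ⟨24, .cst 0, ⟨0, hM⟩, 0⟩ (by simp) ?_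
      simp only [entO, elt, F25r, F24c, ent]

end

end Vale.Agent.P037h3
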