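import Mathlib
import Vale.Agent.P037_h3.Chain2

/-!
P037: counting.  A matrix close to the model matrix agrees with it on the robust part of some
template.
-/

namespace Vale.Agent.P037h3

open Finset

variable {N K M m : ℕ}

/-- parameters of a template -/
abbrev Par (N K m : ℕ) : Type :=
  (Fin N → Fin K) × (Fin N → Fin K) × (Fin N → Fin K) × Fin m × Fin m

theorem card_par : Fintype.card (Par N K m) = K ^ N * (K ^ N * (K ^ N * (m * m))) := by
  simp [Par]

/-- template elements form a finite type -/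
def TE.equivProd : TE N M ≃ (Fin 26 × LT N × Fin M × Fin (N + 1)) where
  toFun x := (x.b, x.t, x.r, x.c)
  invFun p := ⟨p.1, p.2.1, p.2.2.1, p.2.2.2⟩
  left_inv _ := rfl
  right_inv _ := rfl

/-- leaf types form a finite type -/
def LT.equivSum : LT N ≃ (Unit ⊕ Fin 3 ⊕ Fin N) where
  toFun
    | .spec => Sum.inl ()
    | .cst v => Sum.inr (Sum.inl v)
    | .lab j => Sum.inr (Sum.inr j)
  invFun
    | Sum.inl _ => .spec
    | Sum.inr (Sum.inl v) => .cst v
    | Sum.inr (Sum.inr j) => .lab j
  left_inv x := by cases x <;> rfl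
  right_inv x := by rcases x with _ | _ | _ <;> rfl

instance : Fintype (LT N) := Fintype.ofEquiv _ LT.equivSum.symm

instance : Fintype (TE N M) := Fintype.ofEquiv _ TE.equivProd.symm

theorem card_LT : Fintype.card (LT N) = N + 4 := by
  rw [Fintype.card_congr LT.equivSum]
  simp
  omega

theorem card_TE : Fintype.card (TE N M) = 26 * ((N + 4) * (M * (N + 1))) := by
  rw [Fintype.card_congr TE.equivProd]
  simp [card_LT]

/-- the coordinate of an auxiliary leaf that is overwritten -/
def crd (hN : 0 < N) : LT N → Fin N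
  | .spec => ⟨0, hN⟩
  | .cst _ => ⟨0, hN⟩
  | .lab j => j

theorem eq_of_update {g g' : Fin N → Fin K} {j : Fin N} {v v' : Fin K}
    (h : Function.update g j v = Function.update g' j v') (hj : g j = g' j) : g = g' := by
  funext i
  by_cases hi : i = j
  · rw [hi, hj]
  · have := congrFun h i
    simpa [hi] using this

/-- auxiliary leaves determine the parameter up to one coordinate -/
theorem aux_inj (hN : 0 < N) (hK : 3 ≤ K) {I g g' : Fin N → Fin K} {t : LT N} (ht : t ≠ .spec)
    (h : leafOf hN hK I g t = leafOf hN hK I g' t) (hj : g (crd hN t) = g' (crd hN t)) :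
    g = g' := by
  cases t with
  | spec => exact absurd rfl ht
  | cst v => exact eq_of_update h hj
  | lab j => exact eq_of_update h hj

theorem fiber_card (hN : 0 < N) (hK : 3 ≤ K) (t t' : TE N M)
    (hs : ¬ (t.t = .spec ∧ t'.t = .spec)) (x y : Om N K M m) :
    (univ.filter fun θ : Par N K m =>
      (elt hN hK θ.1 θ.2.1 θ.2.2.2.1 t, elt hN hK θ.1 θ.2.2.1 θ.2.2.2.2 t') = (x, y)).card
      ≤ K ^ (N + 2) := by
  classical
  have hcard : (univ : Finset (Fin K × Fin K × (Fin N → Fin K))).card = K ^ (N + 2) := by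
    rw [card_univ]
    simp
    ring
  rw [← hcard]
  by_cases h1 : t.t = .spec
  · have h2 : t'.t ≠ .spec := fun h2 => hs ⟨h1, h2⟩
    refine card_le_card_of_injOn
      (fun θ => (θ.1 ⟨0, hN⟩, θ.2.2.1 (crd hN t'.t), θ.2.1)) (fun _ _ => mem_coe.2 (mem_univ _)) ?_
    rintro ⟨I, g, h, s, s'⟩ h3 ⟨I', g', h', q, q'⟩ h4 h5
    simp only [coe_filter, mem_univ, true_and, Set.mem_ofPred_eq, Prod.mk.injEq] at h3 h4 h5
    obtain ⟨a1, a2⟩ := h3
    obtain ⟨b1, b2⟩ := h4
    obtain ⟨c1, c2, c3⟩ := h5
    rw [← b1] at a1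
    rw [← b2] at a2
    simp only [elt, Om.mk.injEq] at a1 a2
    have hI : I = I' := by
      have := a1.2.1
      rw [h1] at this
      exact eq_of_update this c1
    subst hI
    have hh : h = h' := aux_inj hN hK h2 a2.2.1 c2
    subst hh c3
    rw [a1.2.2.2.2, a2.2.2.2.2]
  · by_cases h2 : t'.t = .spec
    · refine card_le_card_of_injOn
        (fun θ => (θ.1 ⟨0, hN⟩, θ.2.1 (crd hN t.t), θ.2.2.1)) (fun _ _ => mem_coe.2 (mem_univ _)) ?_
      rintro ⟨I, g, h, s, s'⟩ h3 ⟨I', g', h', q, q'⟩ h4 h5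
      simp only [coe_filter, mem_univ, true_and, Set.mem_ofPred_eq, Prod.mk.injEq] at h3 h4 h5
      obtain ⟨a1, a2⟩ := h3
      obtain ⟨b1, b2⟩ := h4
      obtain ⟨c1, c2, c3⟩ := h5
      rw [← b1] at a1
      rw [← b2] at a2
      simp only [elt, Om.mk.injEq] at a1 a2
      have hI : I = I' := by
        have := a2.2.1
        rw [h2] at this
        exact eq_of_update this c1
      subst hI
      have hh : g = g' := aux_inj hN hK h1 a1.2.1 c2
      subst hh c3
      rw [a1.2.2.2.2, a2.2.2.2.2]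
    · refine card_le_card_of_injOn
        (fun θ => (θ.2.1 (crd hN t.t), θ.2.2.1 (crd hN t'.t), θ.1))
        (fun _ _ => mem_coe.2 (mem_univ _)) ?_
      rintro ⟨I, g, h, s, s'⟩ h3 ⟨I', g', h', q, q'⟩ h4 h5
      simp only [coe_filter, mem_univ, true_and, Set.mem_ofPred_eq, Prod.mk.injEq] at h3 h4 h5
      obtain ⟨a1, a2⟩ := h3
      obtain ⟨b1, b2⟩ := h4
      obtain ⟨c1, c2, c3⟩ := h5
      subst c3
      rw [← b1] at a1
      rw [← b2] at a2
      simp only [elt, Om.mk.injEq] at a1 a2
      have hh : g = g' := aux_inj hN hK h1 a1.2.1 c1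
      have hh' : h = h' := aux_inj hN hK h2 a2.2.1 c2
      subst hh hh'
      rw [a1.2.2.2.2, a2.2.2.2.2]

open Classical in
/-- If the set of entries where `B` disagrees with the model matrix is small then some template
is good. -/
theorem exists_good (hN : 0 < N) (hK : 3 ≤ K) (B : Om N K M m → Om N K M m → Bool)
    (hsmall : (Fintype.card (TE N M)) ^ 2 * (K ^ (N + 2) *
      (univ.filter fun p : Om N K M m × Om N K M m => ¬ (B p.1 p.2 = true ↔ entO p.1 p.2)).card)
      < Fintype.card (Par N K m)) :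
    ∃ (I g h : Fin N → Fin K) (s s' : Fin m), ∀ t t' : TE N M, ¬ (t.t = .spec ∧ t'.t = .spec) →
      (B (elt hN hK I g s t) (elt hN hK I h s' t') = true ↔
        entO (elt hN hK I g s t) (elt hN hK I h s' t')) := by
  set Err : Finset (Om N K M m × Om N K M m) :=
    univ.filter fun p : Om N K M m × Om N K M m => ¬ (B p.1 p.2 = true ↔ entO p.1 p.2) with hErr
  by_contra hcon
  push Not at hcon
  -- bad sets
  set bad : TE N M × TE N M → Finset (Par N K m) := fun tt =>
    univ.filter fun θ : Par N K m => ¬ (tt.1.t = .spec ∧ tt.2.t = .spec) ∧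
      (elt hN hK θ.1 θ.2.1 θ.2.2.2.1 tt.1, elt hN hK θ.1 θ.2.2.1 θ.2.2.2.2 tt.2) ∈ Err with hbad
  have hcover : (univ : Finset (Par N K m)) ⊆ (univ : Finset (TE N M × TE N M)).biUnion bad := by
    rintro ⟨I, g, h, s, s'⟩ _
    obtain ⟨t, t', h1, h2⟩ := hcon I g h s s'
    refine mem_biUnion.2 ⟨(t, t'), mem_univ _, ?_⟩
    simp only [hbad, hErr, mem_filter, mem_univ, true_and]
    refine ⟨fun hh => h1 hh.1 hh.2, ?_⟩
    intro hh
    rcases h2 with h2 | h2
    · exact h2.2 (hh.1 h2.1)
    · exact h2.1 (hh.2 h2.2)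
  have hle : ∀ tt ∈ (univ : Finset (TE N M × TE N M)), (bad tt).card ≤ K ^ (N + 2) * Err.card := by
    rintro ⟨t, t'⟩ _
    by_cases hs : (t.t = .spec ∧ t'.t = .spec)
    · have : bad (t, t') = ∅ := by
        simp only [hbad, hs, and_self, not_true, false_and, filter_false]
      rw [this]
      simp
    · have := card_le_mul_card_image_of_maps_to (s := bad (t, t')) (t := Err)
        (f := fun θ : Par N K m => (elt hN hK θ.1 θ.2.1 θ.2.2.2.1 t,
          elt hN hK θ.1 θ.2.2.1 θ.2.2.2.2 t'))
        (fun θ hθ => (mem_filter.1 hθ).2.2) (K ^ (N + 2)) (by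
          rintro ⟨x, y⟩ _
          refine le_trans (card_le_card ?_) (fiber_card hN hK t t' hs x y)
          intro θ hθ
          simp only [mem_filter, mem_univ, true_and] at hθ ⊢
          exact hθ.2)
      exact this
  have h1 := card_le_card hcover
  have h2 := card_biUnion_le_card_mul _ _ _ hle
  rw [card_univ] at h1 h2
  rw [Fintype.card_prod] at h2
  have h3 := h1.trans h2
  have h4 : Fintype.card (TE N M) * Fintype.card (TE N M) * (K ^ (N + 2) * Err.card) =
    (Fintype.card (TE N M)) ^ 2 * (K ^ (N + 2) * Err.card) := by ring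
  rw [h4] at h3
  exact absurd hsmall (not_lt.2 h3)

end Vale.Agent.P037h3
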