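import Mathlib

/-!
P037: statement-level definitions (ordered copies of a binary pattern, pattern-freeness,
normalised Hamming distance from pattern-freeness).
-/

namespace Vale.Agent.P037h3

open Classical in
/-- The finite set of ordered copies of the binary `k × k` matrix `H` in the binary `n × n` matrix
`A`: pairs (increasing row choice, increasing column choice) on which `A` agrees with `H`. -/
noncomputable def copies {k n : ℕ} (H : Matrix (Fin k) (Fin k) Bool) (A : Matrix (Fin n) (Fin n) Bool) :
    Finset ((Fin k → Fin n) × (Fin k → Fin n)) :=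
  Finset.univ.filter fun p =>
    StrictMono p.1 ∧ StrictMono p.2 ∧ ∀ i j, A (p.1 i) (p.2 j) = H i j

/-- `N_H(A)`, the number of ordered copies of `H` in `A`. -/
noncomputable def numCopies {k n : ℕ} (H : Matrix (Fin k) (Fin k) Bool) (A : Matrix (Fin n) (Fin n) Bool) : ℕ :=
  (copies H A).card

/-- The number of entries in which two binary matrices differ. -/
def numDiff {n : ℕ} (A B : Matrix (Fin n) (Fin n) Bool) : ℕ :=
  (Finset.univ.filter fun p : Fin n × Fin n => A p.1 p.2 ≠ B p.1 p.2).card

/-- `dist_H(A)`: the least number of entries in which `A` differs from an `H`-free matrix,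
divided by `n ^ 2`. -/
noncomputable def distFree {k n : ℕ} (H : Matrix (Fin k) (Fin k) Bool)
    (A : Matrix (Fin n) (Fin n) Bool) : ℝ :=
  ((sInf {d : ℕ | ∃ B : Matrix (Fin n) (Fin n) Bool, numCopies H B = 0 ∧ numDiff A B = d} : ℕ) : ℝ)
    / (n : ℝ) ^ 2

end Vale.Agent.P037h3
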