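import Mathlib
import Vale.Agent.P037_h3.Defs
import Vale.Agent.P037_h3.Centre
import Vale.Agent.P037_h3.Count

/-!
P037: the model matrix over `Fin n`, its number of copies and its distance from freeness.
-/

namespace Vale.Agent.P037h3

open Finset

/-- size of the model matrix with `N` levels, branching `K` and multiplicity `m` -/
def sz (N K m : ℕ) : ℕ := 26 * (K ^ N * ((4 * N + 1) * ((N + 1) * m)))

/-- the constant in the distance bound, without the factor `K ^ 2` -/
def D0 (N : ℕ) : ℕ := (26 * ((4 * N + 1) * (N + 1))) ^ 2 * (26 * ((N + 4) * ((4 * N + 1) * (N + 1)))) ^ 2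

theorem numCopies_const_true {n : ℕ} : numCopies Hp (fun _ _ : Fin n => true) = 0 := by
  classical
  unfold numCopies copies
  rw [card_eq_zero, filter_eq_empty_iff]
  rintro ⟨r, c⟩ _ ⟨_, _, h⟩
  have := h 23 23
  simp [Hp, Hn] at this

section

variable {N K m : ℕ}

/-- order isomorphism with `Fin n` -/
noncomputable def isoOm (N K m : ℕ) : Fin (sz N K m) ≃o Om N K (4 * N + 1) m :=
  Fintype.orderIsoFinOfCardEq _ Om.card_eq

open Classical in
/-- the model matrix -/
noncomputable def modelA (N K m : ℕ) : Matrix (Fin (sz N K m)) (Fin (sz N K m)) Bool :=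
  fun i j => decide (entO (isoOm N K m i) (isoOm N K m j))

theorem same_leaf_card (N K M m : ℕ) :
    (univ.filter fun p : Om N K M m × Om N K M m => p.1.l = p.2.l).card ≤
      26 * (K ^ N * (M * ((N + 1) * m))) * (26 * (M * ((N + 1) * m))) := by
  classical
  have h1 : (univ : Finset (Om N K M m × (Fin 26 × Fin M × Fin (N + 1) × Fin m))).card =
      26 * (K ^ N * (M * ((N + 1) * m))) * (26 * (M * ((N + 1) * m))) := by
    rw [card_univ, Fintype.card_prod, Om.card_eq]
    simp
  rw [← h1]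
  refine card_le_card_of_injOn (fun p => (p.1, (p.2.b, p.2.r, p.2.c, p.2.s)))
    (fun _ _ => mem_coe.2 (mem_univ _)) ?_
  rintro ⟨x, y⟩ h2 ⟨x', y'⟩ h3 h4
  simp only [coe_filter, mem_univ, true_and, Set.mem_ofPred_eq, Prod.mk.injEq] at h2 h3 h4
  obtain ⟨e1, e2, e3, e4, e5⟩ := h4
  subst e1
  have e6 : y.l = y'.l := h2.symm.trans h3
  have : y = y' := by
    cases y; cases y'
    simp only [Om.mk.injEq]
    exact ⟨e2, e6, e3, e4, e5⟩
  rw [this]

theorem copies_le (hN : 0 < N) :
    numCopies Hp (modelA N K m) * K ^ N ≤ (sz N K m) ^ 52 := by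
  classical
  set S : Finset (Fin (sz N K m) × Fin (sz N K m)) :=
    univ.filter fun p => (isoOm N K m p.1).l = (isoOm N K m p.2).l with hS
  -- size of `S`
  have hScard : S.card ≤ sz N K m * (26 * ((4 * N + 1) * ((N + 1) * m))) := by
    refine le_trans ?_ (same_leaf_card N K (4 * N + 1) m)
    refine card_le_card_of_injOn
      (fun p : Fin (sz N K m) × Fin (sz N K m) => (isoOm N K m p.1, isoOm N K m p.2)) ?_ ?_
    · intro p hp
      simp only [hS, coe_filter, mem_univ, true_and, Set.mem_ofPred_eq] at hp ⊢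
      exact hp
    · rintro ⟨x, y⟩ _ ⟨x', y'⟩ _ h
      simp only [Prod.mk.injEq, EmbeddingLike.apply_eq_iff_eq] at h
      rw [h.1, h.2]
  have hSK : S.card * K ^ N ≤ sz N K m ^ 2 := by
    calc S.card * K ^ N ≤ sz N K m * (26 * ((4 * N + 1) * ((N + 1) * m))) * K ^ N :=
          Nat.mul_le_mul_right _ hScard
      _ = sz N K m * (26 * (K ^ N * ((4 * N + 1) * ((N + 1) * m)))) := by ring
      _ = sz N K m * sz N K m := rfl
      _ = sz N K m ^ 2 := by ring
  -- the injection
  have hcop : numCopies Hp (modelA N K m) ≤ S.card * (sz N K m ^ 25 * sz N K m ^ 25) := by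
    have h1 : (S ×ˢ (univ : Finset ((Fin 25 → Fin (sz N K m)) × (Fin 25 → Fin (sz N K m))))).card =
        S.card * (sz N K m ^ 25 * sz N K m ^ 25) := by
      rw [card_product, card_univ]
      simp
    rw [← h1]
    unfold numCopies
    refine card_le_card_of_injOn
      (fun p => ((p.1 23, p.2 23),
        (fun j => p.1 ((23 : Fin 26).succAbove j), fun j => p.2 ((23 : Fin 26).succAbove j)))) ?_ ?_
    · rintro ⟨r, c⟩ hp
      simp only [copies, coe_filter, mem_univ, true_and, Set.mem_ofPred_eq] at hp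
      obtain ⟨hr, hc, h⟩ := hp
      have hc' := centre (r := fun i => isoOm N K m (r i)) (c := fun i => isoOm N K m (c i)) hN
        ((isoOm N K m).strictMono.comp hr) ((isoOm N K m).strictMono.comp hc)
        (by
          intro i j
          rw [← h i j]
          simp [modelA])
      rw [mem_coe, mem_product]
      refine ⟨?_, mem_univ _⟩
      rw [hS, mem_filter]
      exact ⟨mem_univ _, hc'⟩
    · rintro ⟨r, c⟩ _ ⟨r', c'⟩ _ h
      simp only [Prod.mk.injEq] at h
      obtain ⟨⟨h1, h2⟩, h3, h4⟩ := h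
      have key : ∀ (f f' : Fin 26 → Fin (sz N K m)), f 23 = f' 23 →
          (fun j => f ((23 : Fin 26).succAbove j)) = (fun j => f' ((23 : Fin 26).succAbove j)) →
          f = f' := by
        intro f f' hf hff
        funext i
        rcases Fin.eq_self_or_eq_succAbove (23 : Fin 26) i with h5 | ⟨j, h5⟩
        · rw [h5, hf]
        · rw [h5]
          exact congrFun hff j
      rw [key r r' h1 h3, key c c' h2 h4]
  calc numCopies Hp (modelA N K m) * K ^ N ≤ S.card * (sz N K m ^ 25 * sz N K m ^ 25) * K ^ N :=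
        Nat.mul_le_mul_right _ hcop
    _ = (S.card * K ^ N) * sz N K m ^ 50 := by ring
    _ ≤ sz N K m ^ 2 * sz N K m ^ 50 := Nat.mul_le_mul_right _ hSK
    _ = sz N K m ^ 52 := by ring

theorem diff_ge (hN : 0 < N) (hK : 3 ≤ K) (B : Matrix (Fin (sz N K m)) (Fin (sz N K m)) Bool)
    (hB : numCopies Hp B = 0) :
    (sz N K m) ^ 2 ≤ D0 N * K ^ 2 * numDiff (modelA N K m) B := by
  classical
  set e := isoOm N K m with he
  set B' : Om N K (4 * N + 1) m → Om N K (4 * N + 1) m → Bool :=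
    fun x y => B (e.symm x) (e.symm y) with hB'
  -- `B'` contains no copy
  have hfree : ¬ ∃ r c : Fin 26 → Om N K (4 * N + 1) m, StrictMono r ∧ StrictMono c ∧
      ∀ i j, B' (r i) (c j) = Hp i j := by
    rintro ⟨r, c, hr, hc, h⟩
    unfold numCopies at hB
    rw [card_eq_zero] at hB
    have : ((fun i => e.symm (r i)), (fun i => e.symm (c i))) ∈ copies Hp B := by
      rw [copies, mem_filter]
      exact ⟨mem_univ _, e.symm.strictMono.comp hr, e.symm.strictMono.comp hc, h⟩
    rw [hB] at this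
    exact absurd this (notMem_empty _)
  have hbig : Fintype.card (Par N K m) ≤ (Fintype.card (TE N (4 * N + 1))) ^ 2 * (K ^ (N + 2) *
      (univ.filter fun p : Om N K (4 * N + 1) m × Om N K (4 * N + 1) m =>
        ¬ (B' p.1 p.2 = true ↔ entO p.1 p.2)).card) := by
    by_contra hcon
    rw [not_le] at hcon
    obtain ⟨I, g, h, s, s', good⟩ := exists_good hN hK B' hcon
    exact hfree (exists_copy hN hK (by omega) I g h s s' B' (by omega) good)
  have hErr : (univ.filter fun p : Om N K (4 * N + 1) m × Om N K (4 * N + 1) m =>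
        ¬ (B' p.1 p.2 = true ↔ entO p.1 p.2)).card ≤ numDiff (modelA N K m) B := by
    unfold numDiff
    refine card_le_card_of_injOn (fun p => (e.symm p.1, e.symm p.2)) ?_ ?_
    · rintro ⟨x, y⟩ hp
      simp only [coe_filter, mem_univ, true_and, Set.mem_ofPred_eq] at hp ⊢
      intro hh
      apply hp
      have h1 : modelA N K m (e.symm x) (e.symm y) = decide (entO x y) := by
        simp only [modelA]
        rw [← he, e.apply_symm_apply, e.apply_symm_apply]
      rw [h1] at hh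
      simp only [hB', ← hh, decide_eq_true_eq]
    · rintro ⟨x, y⟩ _ ⟨x', y'⟩ _ h
      simp only [Prod.mk.injEq, EmbeddingLike.apply_eq_iff_eq] at h
      rw [h.1, h.2]
  set E := (univ.filter fun p : Om N K (4 * N + 1) m × Om N K (4 * N + 1) m =>
        ¬ (B' p.1 p.2 = true ↔ entO p.1 p.2)).card with hE
  rw [card_par, card_TE] at hbig
  have hKN : 0 < K ^ N := Nat.pow_pos (by omega)
  have h2 : sz N K m ^ 2 * K ^ N ≤ (D0 N * K ^ 2 * E) * K ^ N := by
    calc sz N K m ^ 2 * K ^ N = (26 * ((4 * N + 1) * (N + 1))) ^ 2 *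
          (K ^ N * (K ^ N * (K ^ N * (m * m)))) := by
          rw [sz]; ring
      _ ≤ (26 * ((4 * N + 1) * (N + 1))) ^ 2 *
          ((26 * ((N + 4) * ((4 * N + 1) * (N + 1)))) ^ 2 * (K ^ (N + 2) * E)) :=
          Nat.mul_le_mul_left _ hbig
      _ = (D0 N * K ^ 2 * E) * K ^ N := by
          rw [D0]; ring
  have h3 : sz N K m ^ 2 ≤ D0 N * K ^ 2 * E := Nat.le_of_mul_le_mul_right h2 hKN
  exact h3.trans (Nat.mul_le_mul_left _ hErr)

theorem D0_pos (N : ℕ) : 0 < D0 N := by
  unfold D0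
  positivity

/-- distance from freeness of the model matrix -/
theorem dist_ge (hN : 0 < N) (hK : 3 ≤ K) (hm : 0 < m) :
    1 / ((D0 N : ℝ) * (K : ℝ) ^ 2) ≤ distFree Hp (modelA N K m) := by
  have hne : {d : ℕ | ∃ B : Matrix (Fin (sz N K m)) (Fin (sz N K m)) Bool,
      numCopies Hp B = 0 ∧ numDiff (modelA N K m) B = d}.Nonempty :=
    ⟨_, fun _ _ => true, numCopies_const_true, rfl⟩
  obtain ⟨B, hB, hd⟩ := Nat.sInf_mem hne
  unfold distFree
  rw [← hd]
  have h1 := diff_ge hN hK B hB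
  have hn : 0 < sz N K m := by
    unfold sz
    have : 0 < K ^ N := Nat.pow_pos (by omega)
    positivity
  have hn' : (0 : ℝ) < (sz N K m : ℝ) ^ 2 := by positivity
  have hD : (0 : ℝ) < (D0 N : ℝ) * (K : ℝ) ^ 2 := by
    have := D0_pos N
    have hK' : 0 < K := by omega
    positivity
  rw [div_le_div_iff₀ hD hn', one_mul]
  have : (((sz N K m) ^ 2 : ℕ) : ℝ) ≤ ((D0 N * K ^ 2 * numDiff (modelA N K m) B : ℕ) : ℝ) :=
    Nat.cast_le.2 h1
  push_cast at this
  linarith

/-- number of copies in the model matrix -/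
theorem copies_le_real (hN : 0 < N) :
    (numCopies Hp (modelA N K m) : ℝ) * (K : ℝ) ^ N ≤ (sz N K m : ℝ) ^ 52 := by
  have := copies_le (K := K) (m := m) hN
  exact_mod_cast this

end

/-- Qualitative form: for every `c, C > 0` and every `n₀` there is a matrix of size at least `n₀`
which is `ε`-far from `Hp`-free and has fewer than `c ε ^ C n ^ 52` copies of `Hp`. -/
theorem counterexample (c C : ℝ) (hc : 0 < c) (hC : 0 < C) (n₀ : ℕ) :
    ∃ n : ℕ, n₀ ≤ n ∧ 1 ≤ n ∧ ∃ ε : ℝ, 0 < ε ∧ ε < 1 ∧ ∃ A : Matrix (Fin n) (Fin n) Bool,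
      ε ≤ distFree Hp A ∧ (numCopies Hp A : ℝ) < c * ε ^ C * (n : ℝ) ^ (2 * 26) := by
  obtain ⟨N, hN⟩ : ∃ N : ℕ, 2 * C + 1 ≤ N := exists_nat_ge _
  have hN0 : 0 < N := by
    have : (0 : ℝ) < N := by linarith
    exact_mod_cast this
  have hD0 : (0 : ℝ) < (D0 N : ℝ) := by exact_mod_cast D0_pos N
  obtain ⟨K, hK⟩ : ∃ K : ℕ, max 3 ((D0 N : ℝ) ^ C / c + 1) ≤ K := exists_nat_ge _
  have hK3 : 3 ≤ K := by
    have : (3 : ℝ) ≤ K := (le_max_left _ _).trans hK
    exact_mod_cast this
  have hKr : (3 : ℝ) ≤ K := by exact_mod_cast hK3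
  have hKc : (D0 N : ℝ) ^ C < c * K := by
    have h1 : (D0 N : ℝ) ^ C / c + 1 ≤ K := (le_max_right _ _).trans hK
    have h2 : (D0 N : ℝ) ^ C / c < K := by linarith
    rw [div_lt_iff₀ hc] at h2
    linarith
  set m := n₀ + 1 with hm
  set n := sz N K m with hn
  have hKN : 0 < K ^ N := Nat.pow_pos (by omega)
  have hnm : m ≤ n := by
    rw [hn, sz]
    calc m = 1 * (1 * (1 * (1 * m))) := by ring
      _ ≤ 26 * (K ^ N * ((4 * N + 1) * ((N + 1) * m))) :=
        Nat.mul_le_mul (by norm_num) (Nat.mul_le_mul (by omega)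
          (Nat.mul_le_mul (by omega) (Nat.mul_le_mul (by omega) (le_refl _))))
  refine ⟨n, by omega, by omega, 1 / ((D0 N : ℝ) * (K : ℝ) ^ 2), by positivity, ?_,
    modelA N K m, dist_ge hN0 hK3 (by omega), ?_⟩
  · rw [div_lt_one (by positivity)]
    have h1 : (1 : ℝ) ≤ (D0 N : ℝ) := by exact_mod_cast D0_pos N
    nlinarith
  · have h1 := copies_le_real (N := N) (K := K) (m := m) hN0
    have hnpos : (0 : ℝ) < (n : ℝ) := by
      have : 0 < n := by omega
      exact_mod_cast this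
    have hKp : (0 : ℝ) < (K : ℝ) := by linarith
    -- `(D0 K^2)^C < c K^N`
    have hpow : ((D0 N : ℝ) * (K : ℝ) ^ 2) ^ C < c * (K : ℝ) ^ N := by
      rw [Real.mul_rpow hD0.le (by positivity)]
      have e1 : ((K : ℝ) ^ 2) ^ C = (K : ℝ) ^ (2 * C) := by
        rw [← Real.rpow_natCast, ← Real.rpow_mul hKp.le]
        norm_num
      rw [e1]
      calc (D0 N : ℝ) ^ C * (K : ℝ) ^ (2 * C) < c * K * (K : ℝ) ^ (2 * C) := by
            apply mul_lt_mul_of_pos_right hKc
            positivity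
        _ = c * (K : ℝ) ^ (2 * C + 1) := by
            rw [Real.rpow_add hKp, Real.rpow_one]
            ring
        _ ≤ c * (K : ℝ) ^ (N : ℝ) := by
            apply mul_le_mul_of_nonneg_left _ hc.le
            exact Real.rpow_le_rpow_of_exponent_le (by linarith) hN
        _ = c * (K : ℝ) ^ N := by rw [Real.rpow_natCast]
    have hεC : (1 / ((D0 N : ℝ) * (K : ℝ) ^ 2)) ^ C = 1 / ((D0 N : ℝ) * (K : ℝ) ^ 2) ^ C := by
      rw [Real.div_rpow (by norm_num) (by positivity), Real.one_rpow]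
    rw [hεC]
    have hX : (0 : ℝ) < ((D0 N : ℝ) * (K : ℝ) ^ 2) ^ C := by positivity
    have hKNr : (0 : ℝ) < (K : ℝ) ^ N := by positivity
    have hn52 : (0 : ℝ) < (n : ℝ) ^ 52 := by positivity
    have h2 : (numCopies Hp (modelA N K m) : ℝ) ≤ (n : ℝ) ^ 52 / (K : ℝ) ^ N := by
      rw [le_div_iff₀ hKNr]
      exact h1
    refine lt_of_le_of_lt h2 ?_
    have h3 : (n : ℝ) ^ (2 * 26) = (n : ℝ) ^ 52 := by norm_num
    rw [h3, div_lt_iff₀ hKNr]
    have h4 : c * (1 / ((D0 N : ℝ) * (K : ℝ) ^ 2) ^ C) * (n : ℝ) ^ 52 * (K : ℝ) ^ N =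
        (c * (K : ℝ) ^ N / ((D0 N : ℝ) * (K : ℝ) ^ 2) ^ C) * (n : ℝ) ^ 52 := by
      field_simp
    rw [h4]
    have h5 : 1 < c * (K : ℝ) ^ N / ((D0 N : ℝ) * (K : ℝ) ^ 2) ^ C := by
      rw [one_lt_div hX]
      exact hpow
    nlinarith

end Vale.Agent.P037h3
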