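import Mathlib
import Vale.Agent.P037_h3.Defs
import Vale.Agent.P037_h3.Final

/-!
P037: quantitative form for every large `n` and every small `ε`.
-/

namespace Vale.Agent.P037h3

open Finset

section

variable {N K M m : ℕ}

open Classical in
/-- number of errors of a matrix containing no copy, against the model -/
theorem err_ge (hN : 0 < N) (hK : 3 ≤ K) (B' : Om N K (4 * N + 1) m → Om N K (4 * N + 1) m → Bool)
    (hfree : ¬ ∃ r c : Fin 26 → Om N K (4 * N + 1) m, StrictMono r ∧ StrictMono c ∧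
      ∀ i j, B' (r i) (c j) = Hp i j) :
    (sz N K m) ^ 2 ≤ D0 N * K ^ 2 *
      (univ.filter fun p : Om N K (4 * N + 1) m × Om N K (4 * N + 1) m =>
        ¬ (B' p.1 p.2 = true ↔ entO p.1 p.2)).card := by
  have hbig : Fintype.card (Par N K m) ≤ (Fintype.card (TE N (4 * N + 1))) ^ 2 * (K ^ (N + 2) *
      (univ.filter fun p : Om N K (4 * N + 1) m × Om N K (4 * N + 1) m =>
        ¬ (B' p.1 p.2 = true ↔ entO p.1 p.2)).card) := by
    by_contra hcon
    rw [not_le] at hcon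
    obtain ⟨I, g, h, s, s', good⟩ := exists_good hN hK B' hcon
    exact hfree (exists_copy hN hK (by omega) I g h s s' B' (by omega) good)
  set E := (univ.filter fun p : Om N K (4 * N + 1) m × Om N K (4 * N + 1) m =>
        ¬ (B' p.1 p.2 = true ↔ entO p.1 p.2)).card with hE
  rw [card_par, card_TE] at hbig
  have hKN : 0 < K ^ N := Nat.pow_pos (by omega)
  have h2 : sz N K m ^ 2 * K ^ N ≤ (D0 N * K ^ 2 * E) * K ^ N := by
    calc sz N K m ^ 2 * K ^ N = (26 * ((4 * N + 1) * (N + 1))) ^ 2 *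
          (K ^ N * (K ^ N * (K ^ N * (m * m)))) := by
          rw [sz]; ring
      _ ≤ (26 * ((4 * N + 1) * (N + 1))) ^ 2 *
          ((26 * ((N + 4) * ((4 * N + 1) * (N + 1)))) ^ 2 * (K ^ (N + 2) * E)) :=
          Nat.mul_le_mul_left _ hbig
      _ = (D0 N * K ^ 2 * E) * K ^ N := by
          rw [D0]; ring
  exact Nat.le_of_mul_le_mul_right h2 hKN

/-- the indices with `m` copies inside those with `m + 1` copies -/
def up (x : Om N K M m) : Om N K M (m + 1) := ⟨x.b, x.l, x.r, x.c, x.s.castSucc⟩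

theorem up_strictMono : StrictMono (up : Om N K M m → Om N K M (m + 1)) := by
  intro x y h
  rw [Om.lt_iff] at h ⊢
  simp only [Om.key, up, Prod.Lex.lt_iff, ofLex_toLex] at h ⊢
  simpa using h

theorem up_injective : Function.Injective (up : Om N K M m → Om N K M (m + 1)) :=
  up_strictMono.injective

theorem entO_up (x y : Om N K M m) : entO (up x) (up y) ↔ entO x y := Iff.rfl

/-- a set of indices of prescribed size between the model with `m` copies and the one with
`m + 1` copies -/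
theorem exists_mid {n : ℕ} (h1 : sz N K m ≤ n) (h2 : n ≤ sz N K (m + 1)) :
    ∃ S : Finset (Om N K (4 * N + 1) (m + 1)), S.card = n ∧
      ∀ x : Om N K (4 * N + 1) m, up x ∈ S := by
  have hc1 : (univ.map ⟨up, up_injective⟩ : Finset (Om N K (4 * N + 1) (m + 1))).card =
      sz N K m := by
    rw [card_map, card_univ, Om.card_eq, sz]
  have hc2 : (univ : Finset (Om N K (4 * N + 1) (m + 1))).card = sz N K (m + 1) := by
    rw [card_univ, Om.card_eq, sz]
  obtain ⟨S, hS1, _, hS3⟩ := exists_subsuperset_card_eq (n := n)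
    (subset_univ (univ.map ⟨up, up_injective⟩ : Finset (Om N K (4 * N + 1) (m + 1))))
    (by rw [hc1]; exact h1) (by rw [hc2]; exact h2)
  exact ⟨S, hS3, fun x => hS1 (mem_map_of_mem ⟨up, up_injective⟩ (mem_univ x))⟩

/-- The matrix of size `n` between two models. -/
theorem mid (hN : 0 < N) (hK : 3 ≤ K) {n : ℕ} (h1 : sz N K m ≤ n)
    (h2 : n ≤ sz N K (m + 1)) :
    ∃ A : Matrix (Fin n) (Fin n) Bool, numCopies Hp A * K ^ N ≤ (sz N K (m + 1)) ^ 52 ∧
      ∀ B : Matrix (Fin n) (Fin n) Bool, numCopies Hp B = 0 →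
        (sz N K m) ^ 2 ≤ D0 N * K ^ 2 * numDiff A B := by
  classical
  obtain ⟨S, hS, hup⟩ := exists_mid h1 h2
  let e : Fin n ≃o S := S.orderIsoOfFin hS
  refine ⟨fun i j => decide (entO (e i : Om N K (4 * N + 1) (m + 1)) (e j)), ?_, ?_⟩
  · refine le_trans (Nat.mul_le_mul_right _ ?_) (copies_le (K := K) (m := m + 1) hN)
    unfold numCopies
    refine card_le_card_of_injOn
      (fun p => ((fun i => (isoOm N K (m + 1)).symm (e (p.1 i))),
        (fun i => (isoOm N K (m + 1)).symm (e (p.2 i))))) ?_ ?_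
    · rintro ⟨r, c⟩ hp
      simp only [copies, coe_filter, mem_univ, true_and, Set.mem_ofPred_eq] at hp ⊢
      obtain ⟨hr, hc, h⟩ := hp
      have hmono : StrictMono (fun i : Fin n => (e i : Om N K (4 * N + 1) (m + 1))) :=
        fun a b hab => e.strictMono hab
      refine ⟨(isoOm N K (m + 1)).symm.strictMono.comp (hmono.comp hr),
        (isoOm N K (m + 1)).symm.strictMono.comp (hmono.comp hc), fun i j => ?_⟩
      rw [← h i j]
      simp [modelA]
    · rintro ⟨r, c⟩ _ ⟨r', c'⟩ _ h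
      simp only [Prod.mk.injEq] at h
      obtain ⟨h3, h4⟩ := h
      refine Prod.ext (funext fun i => ?_) (funext fun i => ?_)
      · have := congrFun h3 i
        simpa using this
      · have := congrFun h4 i
        simpa using this
  · intro B hB
    have hg : ∀ x : Om N K (4 * N + 1) m, ((e (e.symm ⟨up x, hup x⟩) : S) :
        Om N K (4 * N + 1) (m + 1)) = up x := by
      intro x
      rw [e.apply_symm_apply]
    set g : Om N K (4 * N + 1) m → Fin n := fun x => e.symm ⟨up x, hup x⟩ with hgdef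
    have hgm : StrictMono g := by
      intro a b hab
      exact e.symm.strictMono (up_strictMono hab)
    refine le_trans (err_ge hN hK (fun x y => B (g x) (g y)) ?_) (Nat.mul_le_mul_left _ ?_)
    · rintro ⟨r, c, hr, hc, h⟩
      unfold numCopies at hB
      rw [card_eq_zero] at hB
      have : ((fun i => g (r i)), (fun i => g (c i))) ∈ copies Hp B := by
        rw [copies, mem_filter]
        exact ⟨mem_univ _, hgm.comp hr, hgm.comp hc, h⟩
      rw [hB] at this
      exact absurd this (notMem_empty _)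
    · unfold numDiff
      refine card_le_card_of_injOn (fun p => (g p.1, g p.2)) ?_ ?_
      · rintro ⟨x, y⟩ hp
        simp only [coe_filter, mem_univ, true_and, Set.mem_ofPred_eq] at hp ⊢
        intro hh
        apply hp
        have h3 : (e (g x) : Om N K (4 * N + 1) (m + 1)) = up x := hg x
        have h4 : (e (g y) : Om N K (4 * N + 1) (m + 1)) = up y := hg y
        rw [h3, h4] at hh
        rw [← hh, decide_eq_true_eq]
        exact entO_up x y
      · rintro ⟨x, y⟩ _ ⟨x', y'⟩ _ h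
        simp only [Prod.mk.injEq] at h
        rw [hgm.injective h.1, hgm.injective h.2]

/-- every large size, in terms of the depth `N` (branching `3`) -/
theorem all_sizes (hN : 0 < N) {n : ℕ} (hn : 52 * sz N 3 1 ≤ n) :
    ∃ A : Matrix (Fin n) (Fin n) Bool, (numCopies Hp A : ℝ) * 3 ^ N ≤ 3 * (n : ℝ) ^ 52 ∧
      1 / (36 * (D0 N : ℝ)) ≤ distFree Hp A := by
  have hb : 0 < sz N 3 1 := by
    unfold sz
    positivity
  have hsz : ∀ m, sz N 3 m = sz N 3 1 * m := by
    intro m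
    unfold sz
    ring
  obtain ⟨b, hbdef⟩ : ∃ b, b = sz N 3 1 := ⟨_, rfl⟩
  rw [← hbdef] at hb hn hsz
  set m := n / b with hm
  have hm52 : 52 ≤ m := by
    rw [hm, Nat.le_div_iff_mul_le hb]
    exact hn
  have hlo : b * m ≤ n := Nat.mul_div_le n b
  have hhi : n < b * (m + 1) := Nat.lt_mul_div_succ n hb
  obtain ⟨A, hA1, hA2⟩ := mid (K := 3) (m := m) (n := n) hN (le_refl _) (by rw [hsz]; exact hlo)
    (by rw [hsz]; exact hhi.le)
  have hnpos : 0 < n := by
    have : 0 < b * m := Nat.mul_pos hb (by omega)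
    omega
  refine ⟨A, ?_, ?_⟩
  · rw [hsz] at hA1
    have h1 : (numCopies Hp A : ℝ) * 3 ^ N ≤ ((b : ℝ) * ((m : ℝ) + 1)) ^ 52 := by
      exact_mod_cast hA1
    have hmr : (52 : ℝ) ≤ m := by exact_mod_cast hm52
    have hmpos : (0 : ℝ) < m := by linarith
    have h2 : ((m : ℝ) + 1) ^ 52 ≤ 3 * (m : ℝ) ^ 52 := by
      have h3 : ((m : ℝ) + 1) = m * (1 / m + 1) := by
        rw [mul_add, mul_one_div_cancel hmpos.ne', mul_one, add_comm]
      have h4 : (1 / (m : ℝ) + 1) ^ 52 ≤ 3 := by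
        calc (1 / (m : ℝ) + 1) ^ 52 ≤ (Real.exp (1 / m)) ^ 52 := by
              apply pow_le_pow_left₀ (by positivity)
              exact Real.add_one_le_exp _
          _ = Real.exp (52 * (1 / m)) := by
              rw [← Real.exp_nat_mul]
              norm_num
          _ ≤ Real.exp 1 := by
              apply Real.exp_le_exp.2
              rw [mul_one_div, div_le_one hmpos]
              exact hmr
          _ ≤ 3 := Real.exp_one_lt_three.le
      rw [h3, mul_pow]
      have h5 : (0 : ℝ) < (m : ℝ) ^ 52 := by positivity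
      nlinarith
    have h6 : (b : ℝ) * m ≤ n := by exact_mod_cast hlo
    calc (numCopies Hp A : ℝ) * 3 ^ N ≤ ((b : ℝ) * ((m : ℝ) + 1)) ^ 52 := h1
      _ = (b : ℝ) ^ 52 * ((m : ℝ) + 1) ^ 52 := by rw [mul_pow]
      _ ≤ (b : ℝ) ^ 52 * (3 * (m : ℝ) ^ 52) := by
          apply mul_le_mul_of_nonneg_left h2
          positivity
      _ = 3 * ((b : ℝ) * m) ^ 52 := by rw [mul_pow]; ring
      _ ≤ 3 * (n : ℝ) ^ 52 := by
          apply mul_le_mul_of_nonneg_left _ (by norm_num)
          exact pow_le_pow_left₀ (by positivity) h6 52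
  · have hne : {d : ℕ | ∃ B : Matrix (Fin n) (Fin n) Bool,
        numCopies Hp B = 0 ∧ numDiff A B = d}.Nonempty :=
      ⟨_, fun _ _ => true, numCopies_const_true, rfl⟩
    obtain ⟨B, hB, hd⟩ := Nat.sInf_mem hne
    unfold distFree
    rw [← hd]
    have h1 := hA2 B hB
    rw [hsz] at h1
    have hn' : (0 : ℝ) < (n : ℝ) ^ 2 := by positivity
    have hDp : (0 : ℝ) < (D0 N : ℝ) := by exact_mod_cast D0_pos N
    have hD : (0 : ℝ) < 36 * (D0 N : ℝ) := by positivity
    rw [div_le_div_iff₀ hD hn', one_mul]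
    have h2 : ((b : ℝ) * m) ^ 2 ≤ (D0 N : ℝ) * 3 ^ 2 * (numDiff A B : ℝ) := by
      exact_mod_cast h1
    have h3 : (n : ℝ) ≤ 2 * ((b : ℝ) * m) := by
      have : n ≤ 2 * (b * m) := by
        have h4 : b * (m + 1) ≤ 2 * (b * m) := by nlinarith
        omega
      exact_mod_cast this
    have h4 : (n : ℝ) ^ 2 ≤ 4 * ((b : ℝ) * m) ^ 2 := by
      have h5 : (0 : ℝ) ≤ n := by positivity
      nlinarith
    nlinarith

theorem D0_le (hN : 0 < N) : D0 N ≤ 338000 ^ 2 * N ^ 10 := by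
  unfold D0
  have h1 : 26 * ((4 * N + 1) * (N + 1)) ≤ 26 * ((5 * N) * (2 * N)) := by gcongr <;> omega
  have h2 : 26 * ((N + 4) * ((4 * N + 1) * (N + 1))) ≤ 26 * ((5 * N) * ((5 * N) * (2 * N))) := by
    gcongr <;> omega
  calc (26 * ((4 * N + 1) * (N + 1))) ^ 2 * (26 * ((N + 4) * ((4 * N + 1) * (N + 1)))) ^ 2
      ≤ (26 * ((5 * N) * (2 * N))) ^ 2 * (26 * ((5 * N) * ((5 * N) * (2 * N)))) ^ 2 := by
        gcongr
    _ = 338000 ^ 2 * N ^ 10 := by ring

/-- the quantitative counterexample -/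
theorem quantitative : ∃ c ε₀ : ℝ, 0 < c ∧ 0 < ε₀ ∧ ∀ ε : ℝ, 0 < ε → ε ≤ ε₀ →
    ∃ n₀ : ℕ, ∀ n : ℕ, n₀ ≤ n → ∃ A : Matrix (Fin n) (Fin n) Bool,
      ε ≤ distFree Hp A ∧
        (numCopies Hp A : ℝ) ≤ Real.exp (-(c * (1 / ε) ^ (1 / 10 : ℝ))) * (n : ℝ) ^ 52 := by
  -- `R ^ 10 = 36 * 338000 ^ 2` up to rounding: we use `R = 20`
  refine ⟨1 / 40, 1 / (20 * 20) ^ 10, by norm_num, by norm_num, ?_⟩
  intro ε hε hε0
  set x : ℝ := (1 / ε) ^ (1 / 10 : ℝ) / 20 with hx
  have hε' : (20 * 20 : ℝ) ^ 10 ≤ 1 / ε := by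
    rw [le_div_iff₀ hε]
    rw [le_div_iff₀ (by norm_num)] at hε0
    linarith
  have hroot : ((1 / ε) ^ (1 / 10 : ℝ)) ^ 10 = 1 / ε := by
    rw [← Real.rpow_natCast, ← Real.rpow_mul (by positivity)]
    norm_num
  have hx1 : 20 ≤ x := by
    rw [hx, le_div_iff₀ (by norm_num)]
    have h1 : (0 : ℝ) ≤ (1 / ε) ^ (1 / 10 : ℝ) := by positivity
    refine le_of_pow_le_pow_left₀ (by norm_num : (10 : ℕ) ≠ 0) h1 ?_
    rw [hroot]
    exact hε'
  set N := ⌊x⌋₊ with hNdef
  have hNx : (N : ℝ) ≤ x := Nat.floor_le (by linarith)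
  have hxN : x < N + 1 := Nat.lt_floor_add_one x
  have hN : 0 < N := by
    have : (0 : ℝ) < N := by linarith
    exact_mod_cast this
  refine ⟨52 * sz N 3 1, fun n hn => ?_⟩
  obtain ⟨A, hA1, hA2⟩ := all_sizes hN hn
  refine ⟨A, le_trans ?_ hA2, ?_⟩
  · have h1 : (D0 N : ℝ) ≤ 338000 ^ 2 * (N : ℝ) ^ 10 := by exact_mod_cast D0_le hN
    have hDp : (0 : ℝ) < (D0 N : ℝ) := by exact_mod_cast D0_pos N
    rw [le_div_iff₀ (by positivity)]
    have h2 : (N : ℝ) ^ 10 ≤ x ^ 10 := pow_le_pow_left₀ (by positivity) hNx 10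
    have h3 : x ^ 10 = 1 / ε / 20 ^ 10 := by
      rw [hx, div_pow, hroot]
    rw [h3] at h2
    have h4 : ε * (N : ℝ) ^ 10 ≤ 1 / 20 ^ 10 := by
      calc ε * (N : ℝ) ^ 10 ≤ ε * (1 / ε / 20 ^ 10) := mul_le_mul_of_nonneg_left h2 hε.le
        _ = 1 / 20 ^ 10 := by field_simp
    nlinarith
  · have h3N : (0 : ℝ) < 3 ^ N := by positivity
    have h52 : (0 : ℝ) ≤ (n : ℝ) ^ 52 := by positivity
    have h1 : (numCopies Hp A : ℝ) ≤ 3 / 3 ^ N * (n : ℝ) ^ 52 := by
      rw [div_mul_eq_mul_div, le_div_iff₀ h3N]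
      exact hA1
    refine h1.trans (mul_le_mul_of_nonneg_right ?_ h52)
    -- `3 / 3 ^ N ≤ exp (- x / 2)`
    rw [div_le_iff₀ h3N]
    have h4 : Real.exp N ≤ 3 ^ N := by
      rw [← Real.exp_one_pow N]
      exact pow_le_pow_left₀ (Real.exp_pos _).le Real.exp_one_lt_three.le N
    have h5 : 1 / 40 * (1 / ε) ^ (1 / 10 : ℝ) = x / 2 := by
      rw [hx]
      ring
    rw [h5]
    calc (3 : ℝ) ≤ (-(x / 2) + N) + 1 := by linarith
      _ ≤ Real.exp (-(x / 2) + N) := Real.add_one_le_exp _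
      _ = Real.exp (-(x / 2)) * Real.exp N := Real.exp_add _ _
      _ ≤ Real.exp (-(x / 2)) * 3 ^ N := mul_le_mul_of_nonneg_left h4 (Real.exp_pos _).le

end

end Vale.Agent.P037h3
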